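import Mathlib

/-!
# Chart computations for the edge-parallel cylinder covering bound (P243)

Everything here happens in `ℝ × ℝ × ℝ` with its product Lebesgue measure: the corner simplex
`T0`, its middle octahedron `O0`, and the corner triangle `Tri` (the shadow of `T0` along the first
axis).
-/

open MeasureTheory Set
open scoped Pointwise

namespace Vale.Agent.Lib.P243.H19

/-- The corner simplex in `ℝ × ℝ × ℝ`. -/
def T0 : Set (ℝ × ℝ × ℝ) :=
  {p | 0 ≤ p.1 ∧ 0 ≤ p.2.1 ∧ 0 ≤ p.2.2 ∧ p.1 + p.2.1 + p.2.2 ≤ 1}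

/-- The middle octahedron of the corner simplex: all four barycentric coordinates at most `1/2`. -/
def O0 : Set (ℝ × ℝ × ℝ) :=
  {p | p ∈ T0 ∧ p.1 ≤ 1 / 2 ∧ p.2.1 ≤ 1 / 2 ∧ p.2.2 ≤ 1 / 2 ∧ 1 / 2 ≤ p.1 + p.2.1 + p.2.2}

/-- The corner triangle in `ℝ × ℝ`. -/
def Tri : Set (ℝ × ℝ) := {q | 0 ≤ q.1 ∧ 0 ≤ q.2 ∧ q.1 + q.2 ≤ 1}

theorem isClosed_T0 : IsClosed T0 := by
  unfold T0
  simp only [ofPred_and]
  refine IsClosed.inter ?_ (IsClosed.inter ?_ (IsClosed.inter ?_ ?_))
  · exact isClosed_le continuous_const (by fun_prop)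
  · exact isClosed_le continuous_const (by fun_prop)
  · exact isClosed_le continuous_const (by fun_prop)
  · exact isClosed_le (by fun_prop) continuous_const

theorem measurableSet_T0 : MeasurableSet T0 := isClosed_T0.measurableSet

theorem isClosed_O0 : IsClosed O0 := by
  unfold O0
  simp only [ofPred_and]
  refine IsClosed.inter isClosed_T0 (IsClosed.inter ?_ (IsClosed.inter ?_ (IsClosed.inter ?_ ?_)))
  · exact isClosed_le (by fun_prop) continuous_const
  · exact isClosed_le (by fun_prop) continuous_const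
  · exact isClosed_le (by fun_prop) continuous_const
  · exact isClosed_le continuous_const (by fun_prop)

theorem measurableSet_O0 : MeasurableSet O0 := isClosed_O0.measurableSet

theorem O0_subset_T0 : O0 ⊆ T0 := fun _ h => h.1

/-- Each line parallel to the first axis meets `T0` and `O0` in total length at most one. -/
theorem section_bound (q : ℝ × ℝ) :
    volume ((fun s : ℝ => (s, q)) ⁻¹' T0) + volume ((fun s : ℝ => (s, q)) ⁻¹' O0) ≤ 1 := by
  obtain ⟨y, z⟩ := q
  by_cases h : 0 ≤ y ∧ 0 ≤ z ∧ y + z ≤ 1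
  · have h1 : (fun s : ℝ => (s, (y, z))) ⁻¹' T0 ⊆ Icc 0 (1 - y - z) := by
      intro s hs
      simp only [mem_preimage, T0, mem_ofPred_eq] at hs
      exact ⟨hs.1, by linarith [hs.2.2.2]⟩
    have h2 : (fun s : ℝ => (s, (y, z))) ⁻¹' O0 ⊆ Icc (1 / 2 - y - z) (1 / 2) := by
      intro s hs
      simp only [mem_preimage, O0, mem_ofPred_eq] at hs
      exact ⟨by linarith [hs.2.2.2.2], hs.2.1⟩
    calc volume ((fun s : ℝ => (s, (y, z))) ⁻¹' T0) + volume ((fun s : ℝ => (s, (y, z))) ⁻¹' O0)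
        ≤ volume (Icc (0:ℝ) (1 - y - z)) + volume (Icc (1 / 2 - y - z) (1 / 2 : ℝ)) :=
          add_le_add (measure_mono h1) (measure_mono h2)
      _ = ENNReal.ofReal (1 - y - z) + ENNReal.ofReal (y + z) := by
          rw [Real.volume_Icc, Real.volume_Icc]; congr 2 <;> ring
      _ = ENNReal.ofReal 1 := by
          rw [← ENNReal.ofReal_add (by linarith [h.2.2]) (by linarith [h.1, h.2.1])]; congr 1; ring
      _ = 1 := ENNReal.ofReal_one
  · have h1 : (fun s : ℝ => (s, (y, z))) ⁻¹' T0 = ∅ := by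
      ext s
      simp only [mem_preimage, T0, mem_ofPred_eq, mem_empty_iff_false, iff_false]
      intro hs
      exact h ⟨hs.2.1, hs.2.2.1, by linarith [hs.1, hs.2.2.2]⟩
    have h2 : (fun s : ℝ => (s, (y, z))) ⁻¹' O0 = ∅ := by
      apply subset_empty_iff.1
      rw [← h1]
      exact preimage_mono O0_subset_T0
    rw [h1, h2]; simp

/-- Chart form of the line bound: a cylinder `univ ×ˢ B` meets `T0` and `O0` in total volume at
most the area of its base. -/
theorem chart_cylinder_bound (B : Set (ℝ × ℝ)) :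
    volume ((univ ×ˢ B) ∩ T0) + volume ((univ ×ˢ B) ∩ O0) ≤ volume B := by
  wlog hB : MeasurableSet B generalizing B
  · have hsub : B ⊆ toMeasurable volume B := subset_toMeasurable _ _
    have := this (toMeasurable volume B) (measurableSet_toMeasurable _ _)
    rw [measure_toMeasurable] at this
    refine le_trans (add_le_add (measure_mono ?_) (measure_mono ?_)) this
    · exact inter_subset_inter_left _ (prod_mono subset_rfl hsub)
    · exact inter_subset_inter_left _ (prod_mono subset_rfl hsub)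
  have hC : MeasurableSet ((univ : Set ℝ) ×ˢ B) := MeasurableSet.univ.prod hB
  have hT : MeasurableSet ((univ ×ˢ B) ∩ T0) := hC.inter measurableSet_T0
  have hO : MeasurableSet ((univ ×ˢ B) ∩ O0) := hC.inter measurableSet_O0
  rw [Measure.volume_eq_prod, Measure.prod_apply_symm hT, Measure.prod_apply_symm hO,
    ← lintegral_add_left (measurable_measure_prodMk_right hT)]
  calc ∫⁻ q : ℝ × ℝ, (volume ((fun s : ℝ => (s, q)) ⁻¹' ((univ ×ˢ B) ∩ T0))
          + volume ((fun s : ℝ => (s, q)) ⁻¹' ((univ ×ˢ B) ∩ O0)))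
      ≤ ∫⁻ q : ℝ × ℝ, B.indicator 1 q := by
        apply lintegral_mono
        intro q
        beta_reduce
        by_cases hq : q ∈ B
        · rw [indicator_of_mem hq]
          refine le_trans (add_le_add (measure_mono ?_) (measure_mono ?_)) (section_bound q)
          · exact preimage_mono inter_subset_right
          · exact preimage_mono inter_subset_right
        · have h1 : (fun s : ℝ => (s, q)) ⁻¹' ((univ ×ˢ B) ∩ T0) = ∅ := by
            ext s; simp [hq]
          have h2 : (fun s : ℝ => (s, q)) ⁻¹' ((univ ×ˢ B) ∩ O0) = ∅ := by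
            ext s; simp [hq]
          rw [h1, h2]; simp
    _ = volume B := by
        rw [lintegral_indicator_one hB]

theorem T0_subset_corners :
    T0 ⊆ O0 ∪ (AffineMap.homothety ((0:ℝ), (0:ℝ), (0:ℝ)) (1 / 2 : ℝ) '' T0
      ∪ (AffineMap.homothety ((1:ℝ), (0:ℝ), (0:ℝ)) (1 / 2 : ℝ) '' T0
      ∪ (AffineMap.homothety ((0:ℝ), (1:ℝ), (0:ℝ)) (1 / 2 : ℝ) '' T0
      ∪ AffineMap.homothety ((0:ℝ), (0:ℝ), (1:ℝ)) (1 / 2 : ℝ) '' T0))) := by
  rintro ⟨s, y, z⟩ ⟨hs, hy, hz, hsum⟩
  simp only at hs hy hz hsum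
  by_cases h0 : s + y + z ≤ 1 / 2
  · right; left
    refine ⟨(2 * s, 2 * y, 2 * z), ⟨by positivity, by positivity, by positivity, ?_⟩, ?_⟩
    · simp only; linarith
    · simp [AffineMap.homothety_apply]
  by_cases h1 : 1 / 2 ≤ s
  · right; right; left
    refine ⟨(2 * s - 1, 2 * y, 2 * z), ⟨?_, by positivity, by positivity, ?_⟩, ?_⟩
    · simp only; linarith
    · simp only; linarith
    · simp only [AffineMap.homothety_apply, vsub_eq_sub, vadd_eq_add, Prod.mk_sub_mk,
        Prod.smul_mk, smul_eq_mul, Prod.mk_add_mk, Prod.mk.injEq]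
      refine ⟨by ring, by ring, by ring⟩
  by_cases h2 : 1 / 2 ≤ y
  · right; right; right; left
    refine ⟨(2 * s, 2 * y - 1, 2 * z), ⟨by positivity, ?_, by positivity, ?_⟩, ?_⟩
    · simp only; linarith
    · simp only; linarith
    · simp only [AffineMap.homothety_apply, vsub_eq_sub, vadd_eq_add, Prod.mk_sub_mk,
        Prod.smul_mk, smul_eq_mul, Prod.mk_add_mk, Prod.mk.injEq]
      refine ⟨by ring, by ring, by ring⟩
  by_cases h3 : 1 / 2 ≤ z
  · right; right; right; right
    refine ⟨(2 * s, 2 * y, 2 * z - 1), ⟨by positivity, by positivity, ?_, ?_⟩, ?_⟩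
    · simp only; linarith
    · simp only; linarith
    · simp only [AffineMap.homothety_apply, vsub_eq_sub, vadd_eq_add, Prod.mk_sub_mk,
        Prod.smul_mk, smul_eq_mul, Prod.mk_add_mk, Prod.mk.injEq]
      refine ⟨by ring, by ring, by ring⟩
  left
  exact ⟨⟨hs, hy, hz, hsum⟩, by simp only; linarith, by simp only; linarith,
    by simp only; linarith, by simp only; linarith⟩

theorem T0_subset_box : T0 ⊆ Icc (0:ℝ) 1 ×ˢ (Icc (0:ℝ) 1 ×ˢ Icc (0:ℝ) 1) := by
  rintro ⟨s, y, z⟩ ⟨hs, hy, hz, hsum⟩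
  simp only at hs hy hz hsum
  refine ⟨⟨hs, by linarith⟩, ⟨hy, by linarith⟩, ⟨hz, by linarith⟩⟩

theorem volume_T0_ne_top : volume T0 ≠ ⊤ := by
  apply ne_top_of_le_ne_top _ (measure_mono T0_subset_box)
  rw [Measure.volume_eq_prod, Measure.prod_prod, Measure.volume_eq_prod, Measure.prod_prod]
  simp

theorem isAddHaarMeasure_volume_prod2 : (volume : Measure (ℝ × ℝ)).IsAddHaarMeasure := by
  rw [Measure.volume_eq_prod]; infer_instance

theorem isAddHaarMeasure_volume_prod3 : (volume : Measure (ℝ × ℝ × ℝ)).IsAddHaarMeasure := by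
  have := isAddHaarMeasure_volume_prod2
  rw [Measure.volume_eq_prod]; infer_instance

theorem half_aux (V W : ENNReal) (hV : V ≠ ⊤)
    (h : V ≤ W + 4 * (ENNReal.ofReal |(1 / 2 : ℝ) ^ 3| * V)) : V ≤ 2 * W := by
  have hc : 4 * (ENNReal.ofReal |(1 / 2 : ℝ) ^ 3| * V) = ENNReal.ofReal (1 / 2) * V := by
    rw [← mul_assoc, show (4 : ENNReal) = ENNReal.ofReal 4 by simp,
      ← ENNReal.ofReal_mul (by norm_num)]
    congr 2
    rw [abs_of_nonneg (by positivity)]
    norm_num
  have hV2 : V = ENNReal.ofReal (1 / 2) * V + ENNReal.ofReal (1 / 2) * V := by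
    rw [← add_mul, ← ENNReal.ofReal_add (by norm_num) (by norm_num)]
    norm_num
  rw [hc] at h
  have h3 : ENNReal.ofReal (1 / 2) * V ≤ W := by
    have h4 : ENNReal.ofReal (1 / 2) * V + ENNReal.ofReal (1 / 2) * V
        ≤ W + ENNReal.ofReal (1 / 2) * V := hV2 ▸ h
    exact (ENNReal.add_le_add_iff_right (ENNReal.mul_ne_top ENNReal.ofReal_ne_top hV)).1 h4
  calc V = ENNReal.ofReal (1 / 2) * V + ENNReal.ofReal (1 / 2) * V := hV2
    _ ≤ W + W := add_le_add h3 h3
    _ = 2 * W := (two_mul W).symm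

/-- The octahedron fills at least half of the simplex. -/
theorem volume_T0_le_two_mul : volume T0 ≤ 2 * volume O0 := by
  apply half_aux _ _ volume_T0_ne_top
  have hfin : Module.finrank ℝ (ℝ × ℝ × ℝ) = 3 := by simp
  have := isAddHaarMeasure_volume_prod3
  have hh : ∀ c : ℝ × ℝ × ℝ, volume (AffineMap.homothety c (1 / 2 : ℝ) '' T0)
      = ENNReal.ofReal |(1 / 2 : ℝ) ^ 3| * volume T0 := by
    intro c
    rw [Measure.addHaar_image_homothety, hfin]
  calc volume T0
      ≤ volume (O0 ∪ (AffineMap.homothety ((0:ℝ), (0:ℝ), (0:ℝ)) (1 / 2 : ℝ) '' T0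
      ∪ (AffineMap.homothety ((1:ℝ), (0:ℝ), (0:ℝ)) (1 / 2 : ℝ) '' T0
      ∪ (AffineMap.homothety ((0:ℝ), (1:ℝ), (0:ℝ)) (1 / 2 : ℝ) '' T0
      ∪ AffineMap.homothety ((0:ℝ), (0:ℝ), (1:ℝ)) (1 / 2 : ℝ) '' T0)))) :=
        measure_mono T0_subset_corners
    _ ≤ volume O0 + (ENNReal.ofReal |(1 / 2 : ℝ) ^ 3| * volume T0
        + (ENNReal.ofReal |(1 / 2 : ℝ) ^ 3| * volume T0
        + (ENNReal.ofReal |(1 / 2 : ℝ) ^ 3| * volume T0
        + ENNReal.ofReal |(1 / 2 : ℝ) ^ 3| * volume T0))) := by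
        refine le_trans (measure_union_le _ _) (add_le_add le_rfl ?_)
        refine le_trans (measure_union_le _ _) (add_le_add (hh _).le ?_)
        refine le_trans (measure_union_le _ _) (add_le_add (hh _).le ?_)
        exact le_trans (measure_union_le _ _) (add_le_add (hh _).le (hh _).le)
    _ = volume O0 + 4 * (ENNReal.ofReal |(1 / 2 : ℝ) ^ 3| * volume T0) := by
        ring

theorem smul_Tri_subset (s : ℝ) (hs : s ∈ Icc (0:ℝ) 1) :
    (1 - s) • Tri ⊆ (Prod.mk s) ⁻¹' T0 := by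
  rintro _ ⟨⟨y, z⟩, ⟨hy, hz, hyz⟩, rfl⟩
  simp only at hy hz hyz
  simp only [mem_preimage, T0, mem_ofPred_eq, Prod.smul_mk, smul_eq_mul]
  have h1 : 0 ≤ 1 - s := by linarith [hs.2]
  refine ⟨hs.1, mul_nonneg h1 hy, mul_nonneg h1 hz, ?_⟩
  nlinarith [mul_le_mul_of_nonneg_left hyz h1]

theorem lintegral_sq_aux : ∫⁻ s in Icc (0:ℝ) 1, ENNReal.ofReal ((1 - s) ^ 2) = ENNReal.ofReal (1 / 3) := by
  rw [← ofReal_integral_eq_lintegral_ofReal]
  · congr 1
    rw [integral_Icc_eq_integral_Ioc, ← intervalIntegral.integral_of_le zero_le_one]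
    have h := intervalIntegral.integral_comp_sub_left (fun x : ℝ => x ^ 2) (a := 0) (b := 1) 1
    rw [h]
    simp [integral_pow]
    norm_num
  · exact Continuous.integrableOn_Icc (by fun_prop)
  · exact Filter.Eventually.of_forall fun s => sq_nonneg _

/-- The simplex has at least a third of the volume of the unit prism over its shadow. -/
theorem volume_Tri_le : volume Tri ≤ 3 * volume T0 := by
  have hfin : Module.finrank ℝ (ℝ × ℝ) = 2 := by simp
  have := isAddHaarMeasure_volume_prod2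
  have h1 : ENNReal.ofReal (1 / 3) * volume Tri ≤ volume T0 := by
    calc ENNReal.ofReal (1 / 3) * volume Tri
        = ∫⁻ s in Icc (0:ℝ) 1, ENNReal.ofReal ((1 - s) ^ 2) * volume Tri := by
          rw [lintegral_mul_const _ (by fun_prop), lintegral_sq_aux]
      _ ≤ ∫⁻ s in Icc (0:ℝ) 1, volume (Prod.mk s ⁻¹' T0) := by
          apply setLIntegral_mono' measurableSet_Icc
          intro s hs
          calc ENNReal.ofReal ((1 - s) ^ 2) * volume Tri
              = volume ((1 - s) • Tri) := by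
                rw [Measure.addHaar_smul, hfin, abs_of_nonneg (sq_nonneg _)]
            _ ≤ volume (Prod.mk s ⁻¹' T0) := measure_mono (smul_Tri_subset s hs)
      _ ≤ ∫⁻ s, volume (Prod.mk s ⁻¹' T0) := setLIntegral_le_lintegral _ _
      _ = volume T0 := (Measure.prod_apply measurableSet_T0).symm
  calc volume Tri = 3 * (ENNReal.ofReal (1 / 3) * volume Tri) := by
        rw [← mul_assoc, show (3 : ENNReal) = ENNReal.ofReal 3 by simp,
          ← ENNReal.ofReal_mul (by norm_num)]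
        norm_num
    _ ≤ 3 * volume T0 := by gcongr

theorem volume_Tri_ne_top : volume Tri ≠ ⊤ := by
  have hsub : Tri ⊆ Icc (0:ℝ) 1 ×ˢ Icc (0:ℝ) 1 := by
    rintro ⟨y, z⟩ ⟨hy, hz, hsum⟩
    simp only at hy hz hsum
    exact ⟨⟨hy, by linarith⟩, ⟨hz, by linarith⟩⟩
  apply ne_top_of_le_ne_top _ (measure_mono hsub)
  rw [Measure.volume_eq_prod, Measure.prod_prod]
  simp

theorem volume_Tri_ne_zero : volume Tri ≠ 0 := by
  have hsub : Icc (0:ℝ) (1 / 2) ×ˢ Icc (0:ℝ) (1 / 2) ⊆ Tri := by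
    rintro ⟨y, z⟩ ⟨⟨hy, hy'⟩, ⟨hz, hz'⟩⟩
    simp only at hy hz hy' hz'
    exact ⟨hy, hz, by simp only; linarith⟩
  intro h0
  have := measure_mono_null hsub h0
  rw [Measure.volume_eq_prod, Measure.prod_prod] at this
  simp at this

theorem volume_T0_ne_zero : volume T0 ≠ 0 := by
  intro h0
  have := volume_Tri_le
  rw [h0, mul_zero] at this
  exact volume_Tri_ne_zero (le_antisymm this bot_le)

end Vale.Agent.Lib.P243.H19
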