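import Mathlib

/-!
# One-dimensional tools for the cylinder concentration bound (P243)

* `bm_real`: the Brunn-Minkowski inequality for bounded convex subsets of the real line.
* `bbl_one`: a one-dimensional Borell-Brascamp-Lieb type inequality, proved by comparing
  superlevel sets (layer cake) after normalising the suprema.
-/

open MeasureTheory Set

namespace Vale.Agent.Lib.P243.H19

/-- One-dimensional Brunn-Minkowski inequality for bounded convex sets. -/
theorem bm_real {I J S : Set ℝ} (hI : Convex ℝ I) (hJ : Convex ℝ J)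
    (hIne : I.Nonempty) (hJne : J.Nonempty)
    (hIb : Bornology.IsBounded I) (hJb : Bornology.IsBounded J)
    {l : ℝ} (hl0 : 0 ≤ l) (hl1 : l ≤ 1)
    (hS : ∀ x ∈ I, ∀ y ∈ J, (1 - l) * x + l * y ∈ S) :
    ENNReal.ofReal (1 - l) * volume I + ENNReal.ofReal l * volume J ≤ volume S := by
  have hl1' : 0 ≤ 1 - l := by linarith
  have hIsub : I ⊆ Icc (sInf I) (sSup I) := subset_Icc_csInf_csSup hIb.bddBelow hIb.bddAbove
  have hJsub : J ⊆ Icc (sInf J) (sSup J) := subset_Icc_csInf_csSup hJb.bddBelow hJb.bddAbove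
  have hdI : 0 ≤ sSup I - sInf I := by
    obtain ⟨x, hx⟩ := hIne
    linarith [(hIsub hx).1, (hIsub hx).2]
  have hdJ : 0 ≤ sSup J - sInf J := by
    obtain ⟨x, hx⟩ := hJne
    linarith [(hJsub hx).1, (hJsub hx).2]
  have hvI : volume I ≤ ENNReal.ofReal (sSup I - sInf I) := by
    refine (measure_mono hIsub).trans ?_
    rw [Real.volume_Icc]
  have hvJ : volume J ≤ ENNReal.ofReal (sSup J - sInf J) := by
    refine (measure_mono hJsub).trans ?_
    rw [Real.volume_Icc]
  -- the key lower bound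
  have key : ∀ ε : ℝ, 0 < ε →
      ENNReal.ofReal ((1 - l) * (sSup I - sInf I) + l * (sSup J - sInf J) - 2 * ε) ≤ volume S := by
    intro ε hε
    obtain ⟨x1, hx1, hx1'⟩ := exists_lt_of_csInf_lt hIne (show sInf I < sInf I + ε by linarith)
    obtain ⟨x2, hx2, hx2'⟩ := exists_lt_of_lt_csSup hIne (show sSup I - ε < sSup I by linarith)
    obtain ⟨y1, hy1, hy1'⟩ := exists_lt_of_csInf_lt hJne (show sInf J < sInf J + ε by linarith)
    obtain ⟨y2, hy2, hy2'⟩ := exists_lt_of_lt_csSup hJne (show sSup J - ε < sSup J by linarith)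
    have hsub : Icc ((1 - l) * x1 + l * y1) ((1 - l) * x2 + l * y2) ⊆ S := by
      intro w hw
      have hz : (1 - l) * x1 + l * y1 ≤ (1 - l) * x2 + l * y2 := hw.1.trans hw.2
      rw [← segment_eq_Icc hz] at hw
      obtain ⟨a, b, ha, hb, hab, rfl⟩ := hw
      have h1 := hS (a • x1 + b • x2) (hI hx1 hx2 ha hb hab) (a • y1 + b • y2)
        (hJ hy1 hy2 ha hb hab)
      have h2 : (1 - l) * (a • x1 + b • x2) + l * (a • y1 + b • y2)
          = a • ((1 - l) * x1 + l * y1) + b • ((1 - l) * x2 + l * y2) := by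
        simp only [smul_eq_mul]; ring
      rw [h2] at h1
      exact h1
    refine le_trans ?_ (measure_mono hsub)
    rw [Real.volume_Icc]
    apply ENNReal.ofReal_le_ofReal
    have e1 : (1 - l) * (x2 - x1) ≥ (1 - l) * (sSup I - sInf I - 2 * ε) :=
      mul_le_mul_of_nonneg_left (by linarith) hl1'
    have e2 : l * (y2 - y1) ≥ l * (sSup J - sInf J - 2 * ε) :=
      mul_le_mul_of_nonneg_left (by linarith) hl0
    nlinarith
  have main : ENNReal.ofReal ((1 - l) * (sSup I - sInf I) + l * (sSup J - sInf J))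
      ≤ volume S := by
    by_cases htop : volume S = ⊤
    · rw [htop]; exact le_top
    · rw [← ENNReal.ofReal_toReal htop]
      apply ENNReal.ofReal_le_ofReal
      apply le_of_forall_pos_le_add
      intro ε hε
      have h1 := key (ε / 2) (by positivity)
      rw [← ENNReal.ofReal_toReal htop] at h1
      have h2 := (ENNReal.ofReal_le_ofReal_iff ENNReal.toReal_nonneg).1 h1
      linarith
  calc ENNReal.ofReal (1 - l) * volume I + ENNReal.ofReal l * volume J
      ≤ ENNReal.ofReal (1 - l) * ENNReal.ofReal (sSup I - sInf I)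
        + ENNReal.ofReal l * ENNReal.ofReal (sSup J - sInf J) := by gcongr
    _ = ENNReal.ofReal ((1 - l) * (sSup I - sInf I) + l * (sSup J - sInf J)) := by
        rw [← ENNReal.ofReal_mul hl1', ← ENNReal.ofReal_mul hl0,
          ← ENNReal.ofReal_add (mul_nonneg hl1' hdI) (mul_nonneg hl0 hdJ)]
    _ ≤ volume S := main

/-- Layer cake on `(0,1)` for a function bounded by `F`. -/
theorem layer_unit (f : ℝ → ℝ) (hf0 : ∀ x, 0 ≤ f x) (hfm : Measurable f) (F : ℝ) (hF : 0 < F)
    (hfF : ∀ x, f x ≤ F) :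
    ∫⁻ θ in Ioo (0:ℝ) 1, volume {x | F * θ < f x}
      = ENNReal.ofReal (1 / F) * ∫⁻ x, ENNReal.ofReal (f x) := by
  have h1 : ENNReal.ofReal (1 / F) * ∫⁻ x, ENNReal.ofReal (f x)
      = ∫⁻ x, ENNReal.ofReal (f x / F) := by
    rw [← lintegral_const_mul _ hfm.ennreal_ofReal]
    congr 1
    funext x
    rw [← ENNReal.ofReal_mul (by positivity)]
    congr 1
    field_simp
  rw [h1, lintegral_eq_lintegral_meas_lt volume
    (Filter.Eventually.of_forall fun x => div_nonneg (hf0 x) hF.le)
    (hfm.div_const F).aemeasurable]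
  have h2 : Ioi (0:ℝ) = Ioo 0 1 ∪ Ici 1 := by
    ext t
    simp only [mem_Ioi, mem_union, mem_Ioo, mem_Ici]
    constructor
    · intro h
      by_cases h1 : t < 1
      · exact Or.inl ⟨h, h1⟩
      · exact Or.inr (not_lt.1 h1)
    · rintro (h | h)
      · exact h.1
      · linarith
  have h3 : Disjoint (Ioo (0:ℝ) 1) (Ici 1) := by
    rw [Set.disjoint_left]
    intro t ht ht'
    exact absurd ht.2 (not_lt.2 ht')
  rw [h2, lintegral_union measurableSet_Ici h3]
  have h4 : ∫⁻ t in Ici (1:ℝ), volume {x | t < f x / F} = 0 := by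
    rw [← lintegral_zero (μ := volume.restrict (Ici (1:ℝ)))]
    apply setLIntegral_congr_fun measurableSet_Ici
    intro t ht
    have : {x | t < f x / F} = ∅ := by
      ext x
      simp only [mem_ofPred_eq, mem_empty_iff_false, iff_false, not_lt]
      rw [div_le_iff₀ hF]
      have := hfF x
      have ht1 : (1:ℝ) ≤ t := ht
      nlinarith
    simp [this]
  rw [h4, add_zero]
  apply setLIntegral_congr_fun measurableSet_Ioo
  intro t ht
  have h5 : {x | F * t < f x} = {x | t < f x / F} := by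
    ext x
    simp only [mem_ofPred_eq]
    rw [lt_div_iff₀ hF, mul_comm]
  beta_reduce
  rw [h5]

/-- A one-dimensional Borell-Brascamp-Lieb type inequality (arithmetic-mean hypothesis). -/
theorem bbl_one (f g h : ℝ → ℝ) (hf0 : ∀ x, 0 ≤ f x) (hg0 : ∀ x, 0 ≤ g x) (hh0 : ∀ x, 0 ≤ h x)
    (hfm : Measurable f) (hgm : Measurable g) (hhm : Measurable h)
    (F G : ℝ) (hF : 0 < F) (hG : 0 < G) (hfF : ∀ x, f x ≤ F) (hgG : ∀ x, g x ≤ G)
    (hFs : ∀ θ, θ < 1 → ∃ x, F * θ < f x) (hGs : ∀ θ, θ < 1 → ∃ x, G * θ < g x)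
    (hfc : ∀ s, 0 ≤ s → Convex ℝ {x | s < f x}) (hgc : ∀ s, 0 ≤ s → Convex ℝ {x | s < g x})
    (hfb : Bornology.IsBounded {x | 0 < f x}) (hgb : Bornology.IsBounded {x | 0 < g x})
    (l : ℝ) (hl0 : 0 ≤ l) (hl1 : l ≤ 1)
    (H : ∀ x y, 0 < f x → 0 < g y → (1 - l) * f x + l * g y ≤ h ((1 - l) * x + l * y)) :
    ENNReal.ofReal ((1 - l) * F + l * G)
      * (ENNReal.ofReal (1 - l) * (ENNReal.ofReal (1 / F) * ∫⁻ x, ENNReal.ofReal (f x))
        + ENNReal.ofReal l * (ENNReal.ofReal (1 / G) * ∫⁻ x, ENNReal.ofReal (g x)))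
      ≤ ∫⁻ x, ENNReal.ofReal (h x) := by
  have hl1' : 0 ≤ 1 - l := by linarith
  have hM : 0 < (1 - l) * F + l * G := by
    rcases eq_or_lt_of_le hl0 with h0 | h0
    · rw [← h0]; simpa using hF
    · have := mul_pos h0 hG
      have := mul_nonneg hl1' hF.le
      linarith
  set M := (1 - l) * F + l * G with hMdef
  have h1 : ∫⁻ x, ENNReal.ofReal (h x)
      = ENNReal.ofReal M * ∫⁻ x, ENNReal.ofReal (h x / M) := by
    rw [← lintegral_const_mul _ (hhm.div_const M).ennreal_ofReal]
    congr 1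
    funext x
    rw [← ENNReal.ofReal_mul hM.le]
    congr 1
    field_simp
  rw [h1]
  gcongr
  rw [lintegral_eq_lintegral_meas_lt volume
    (Filter.Eventually.of_forall fun x => div_nonneg (hh0 x) hM.le)
    (hhm.div_const M).aemeasurable]
  rw [← layer_unit f hf0 hfm F hF hfF, ← layer_unit g hg0 hgm G hG hgG]
  have hmf : Measurable fun θ : ℝ => volume {x | F * θ < f x} := by
    apply Antitone.measurable
    intro a b hab
    apply measure_mono
    intro x hx
    simp only [mem_ofPred_eq] at hx ⊢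
    have := mul_le_mul_of_nonneg_left hab hF.le
    linarith
  have hmg : Measurable fun θ : ℝ => volume {x | G * θ < g x} := by
    apply Antitone.measurable
    intro a b hab
    apply measure_mono
    intro x hx
    simp only [mem_ofPred_eq] at hx ⊢
    have := mul_le_mul_of_nonneg_left hab hG.le
    linarith
  rw [← lintegral_const_mul _ hmf, ← lintegral_const_mul _ hmg,
    ← lintegral_add_left (hmf.const_mul _)]
  refine le_trans ?_ (lintegral_mono_set (s := Ioo (0:ℝ) 1) (t := Ioi 0) Ioo_subset_Ioi_self)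
  apply setLIntegral_mono' measurableSet_Ioo
  intro θ hθ
  have hθ0 : 0 ≤ F * θ := mul_nonneg hF.le hθ.1.le
  have hθ0' : 0 ≤ G * θ := mul_nonneg hG.le hθ.1.le
  apply bm_real (hfc _ hθ0) (hgc _ hθ0') (hFs θ hθ.2) (hGs θ hθ.2) _ _ hl0 hl1
  · intro x hx y hy
    simp only [mem_ofPred_eq] at hx hy ⊢
    have hfx : 0 < f x := lt_of_le_of_lt hθ0 hx
    have hgy : 0 < g y := lt_of_le_of_lt hθ0' hy
    have h2 := H x y hfx hgy
    rw [lt_div_iff₀ hM]
    have h3 : θ * M < (1 - l) * f x + l * g y := by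
      rw [hMdef]
      rcases eq_or_lt_of_le hl0 with h0 | h0
      · rw [← h0]; simp only [sub_zero, one_mul, zero_mul, add_zero]; linarith
      · have e1 := mul_le_mul_of_nonneg_left hx.le hl1'
        have e2 := mul_lt_mul_of_pos_left hy h0
        nlinarith
    linarith
  · exact hfb.subset (fun x hx => lt_of_le_of_lt hθ0 hx)
  · exact hgb.subset (fun x hx => lt_of_le_of_lt hθ0' hx)

end Vale.Agent.Lib.P243.H19
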