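import Mathlib
import Vale.Agent.Lib.P243.H19.OneDim
import Vale.Agent.Lib.P243.H19.Chart

/-!
# The Brunn-Minkowski inequality for bounded convex sets in the plane (P243)

`bm_plane`: if `Z` contains all combinations `(1 - l) p + l q` with `p ∈ X`, `q ∈ Y`, where `X`, `Y`
are nonempty bounded measurable convex subsets of `ℝ × ℝ`, then
`(1 - l) √|X| + l √|Y| ≤ √|Z|`. The proof slices by vertical lines and applies `bbl_one`.
-/

open MeasureTheory Set

namespace Vale.Agent.Lib.P243.H19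

/-- Vertical sections of a bounded planar set lie in a fixed bounded interval. -/
theorem section_subset_Icc {X : Set (ℝ × ℝ)} (hXb : Bornology.IsBounded X) :
    ∃ R : ℝ, 0 ≤ R ∧ ∀ x : ℝ, Prod.mk x ⁻¹' X ⊆ Icc (-R) R := by
  obtain ⟨R, hR⟩ := hXb.exists_norm_le
  refine ⟨max R 0, le_max_right _ _, fun x y hy => ?_⟩
  have h1 : ‖((x, y) : ℝ × ℝ)‖ ≤ R := hR _ hy
  have h2 : |y| ≤ ‖((x, y) : ℝ × ℝ)‖ := by
    rw [Prod.norm_def]
    exact le_max_right _ _
  have h3 : |y| ≤ max R 0 := (h2.trans h1).trans (le_max_left _ _)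
  exact ⟨by linarith [neg_abs_le y], by linarith [le_abs_self y]⟩

theorem section_bounded {X : Set (ℝ × ℝ)} (hXb : Bornology.IsBounded X) (x : ℝ) :
    Bornology.IsBounded (Prod.mk x ⁻¹' X) := by
  obtain ⟨R, -, hR⟩ := section_subset_Icc hXb
  exact (Metric.isBounded_Icc (-R) R).subset (hR x)

theorem section_volume_ne_top {X : Set (ℝ × ℝ)} (hXb : Bornology.IsBounded X) (x : ℝ) :
    volume (Prod.mk x ⁻¹' X) ≠ ⊤ :=
  (section_bounded hXb x).measure_lt_top.ne

theorem section_convex {X : Set (ℝ × ℝ)} (hX : Convex ℝ X) (x : ℝ) :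
    Convex ℝ (Prod.mk x ⁻¹' X) := by
  intro y1 hy1 y2 hy2 a b ha hb hab
  have h := hX hy1 hy2 ha hb hab
  have h2 : a • ((x, y1) : ℝ × ℝ) + b • ((x, y2) : ℝ × ℝ) = (x, a • y1 + b • y2) := by
    ext
    · simp only [Prod.fst_add, Prod.smul_fst, smul_eq_mul]
      rw [← add_mul, hab, one_mul]
    · simp
  rw [h2] at h
  exact h

/-- The length of the vertical section of a planar set. -/
noncomputable def secLen (X : Set (ℝ × ℝ)) (x : ℝ) : ℝ := (volume (Prod.mk x ⁻¹' X)).toReal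

theorem secLen_nonneg (X : Set (ℝ × ℝ)) (x : ℝ) : 0 ≤ secLen X x := ENNReal.toReal_nonneg

theorem secLen_measurable {X : Set (ℝ × ℝ)} (hXm : MeasurableSet X) : Measurable (secLen X) :=
  (measurable_measure_prodMk_left hXm).ennreal_toReal

theorem lintegral_secLen {X : Set (ℝ × ℝ)} (hXm : MeasurableSet X)
    (hXb : Bornology.IsBounded X) : ∫⁻ x, ENNReal.ofReal (secLen X x) = volume X := by
  rw [Measure.volume_eq_prod, Measure.prod_apply hXm]
  apply lintegral_congr
  intro x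
  exact ENNReal.ofReal_toReal (section_volume_ne_top hXb x)

theorem nonempty_of_secLen_pos {X : Set (ℝ × ℝ)} {x : ℝ} (h : 0 < secLen X x) :
    (Prod.mk x ⁻¹' X).Nonempty := by
  by_contra hne
  rw [not_nonempty_iff_eq_empty] at hne
  simp [secLen, hne] at h

/-- Sections of a Minkowski combination: the section length is superadditive. -/
theorem secLen_combo {X Y Z : Set (ℝ × ℝ)} (hX : Convex ℝ X) (hY : Convex ℝ Y)
    (hXb : Bornology.IsBounded X) (hYb : Bornology.IsBounded Y) (hZb : Bornology.IsBounded Z)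
    {l : ℝ} (hl0 : 0 ≤ l) (hl1 : l ≤ 1)
    (hZ : ∀ p ∈ X, ∀ q ∈ Y, (1 - l) • p + l • q ∈ Z) (x y : ℝ)
    (hx : 0 < secLen X x) (hy : 0 < secLen Y y) :
    (1 - l) * secLen X x + l * secLen Y y ≤ secLen Z ((1 - l) * x + l * y) := by
  have hl1' : 0 ≤ 1 - l := by linarith
  have h := bm_real (section_convex hX x) (section_convex hY y) (nonempty_of_secLen_pos hx)
    (nonempty_of_secLen_pos hy) (section_bounded hXb x) (section_bounded hYb y) hl0 hl1
    (S := Prod.mk ((1 - l) * x + l * y) ⁻¹' Z) (by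
      intro u hu w hw
      have h1 := hZ _ hu _ hw
      simpa using h1)
  have h2 := ENNReal.toReal_mono (section_volume_ne_top hZb _) h
  rw [ENNReal.toReal_add (ENNReal.mul_ne_top ENNReal.ofReal_ne_top (section_volume_ne_top hXb x))
    (ENNReal.mul_ne_top ENNReal.ofReal_ne_top (section_volume_ne_top hYb y)),
    ENNReal.toReal_mul, ENNReal.toReal_mul, ENNReal.toReal_ofReal hl1',
    ENNReal.toReal_ofReal hl0] at h2
  exact h2


theorem secLen_superlevel_convex {X : Set (ℝ × ℝ)} (hX : Convex ℝ X)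
    (hXb : Bornology.IsBounded X) (s : ℝ) (hs : 0 ≤ s) : Convex ℝ {x | s < secLen X x} := by
  intro x1 hx1 x2 hx2 a b ha hb hab
  simp only [mem_ofPred_eq] at hx1 hx2 ⊢
  have hb1 : b ≤ 1 := by linarith
  have ha' : a = 1 - b := by linarith
  have h := secLen_combo hX hX hXb hXb hXb hb hb1 (Z := X)
    (fun p hp q hq => hX hp hq (by linarith) hb (by linarith)) x1 x2
    (lt_of_le_of_lt hs hx1) (lt_of_le_of_lt hs hx2)
  rw [smul_eq_mul, smul_eq_mul, ha']
  refine lt_of_lt_of_le ?_ h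
  rcases eq_or_lt_of_le hb with h0 | h0
  · rw [← h0]; simpa using hx1
  · have e1 := mul_le_mul_of_nonneg_left hx1.le (show (0:ℝ) ≤ 1 - b by linarith)
    have e2 := mul_lt_mul_of_pos_left hx2 h0
    nlinarith

theorem secLen_support_bounded {X : Set (ℝ × ℝ)} (hXb : Bornology.IsBounded X) :
    Bornology.IsBounded {x | 0 < secLen X x} := by
  obtain ⟨R, hR⟩ := hXb.exists_norm_le
  refine (Metric.isBounded_Icc (-R) R).subset ?_
  intro x hx
  obtain ⟨y, hy⟩ := nonempty_of_secLen_pos hx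
  have h1 : ‖((x, y) : ℝ × ℝ)‖ ≤ R := hR _ hy
  have h2 : |x| ≤ ‖((x, y) : ℝ × ℝ)‖ := by
    rw [Prod.norm_def]
    exact le_max_left _ _
  exact ⟨by linarith [neg_abs_le x], by linarith [le_abs_self x]⟩

theorem secLen_le {X : Set (ℝ × ℝ)} (hXb : Bornology.IsBounded X) :
    ∃ R : ℝ, ∀ x, secLen X x ≤ R := by
  obtain ⟨R, hR0, hR⟩ := section_subset_Icc hXb
  refine ⟨2 * R, fun x => ?_⟩
  have h1 : volume (Prod.mk x ⁻¹' X) ≤ ENNReal.ofReal (2 * R) := by
    refine (measure_mono (hR x)).trans ?_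
    rw [Real.volume_Icc]
    apply ENNReal.ofReal_le_ofReal
    linarith
  have h2 := ENNReal.toReal_mono ENNReal.ofReal_ne_top h1
  rw [ENNReal.toReal_ofReal (by linarith)] at h2
  exact h2

theorem exists_secLen_pos {X : Set (ℝ × ℝ)} (hXm : MeasurableSet X)
    (hXb : Bornology.IsBounded X) (h0 : volume X ≠ 0) : ∃ x, 0 < secLen X x := by
  by_contra hcon
  simp only [not_exists, not_lt] at hcon
  apply h0
  rw [← lintegral_secLen hXm hXb]
  have : ∀ x, ENNReal.ofReal (secLen X x) = 0 := fun x => ENNReal.ofReal_of_nonpos (hcon x)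
  simp [this]

theorem cs_aux (F G p q l : ℝ) (hF : 0 < F) (hG : 0 < G) (hl0 : 0 ≤ l) (hl1 : l ≤ 1) :
    ((1 - l) * p + l * q) ^ 2
      ≤ ((1 - l) * F + l * G) * ((1 - l) * (1 / F * p ^ 2) + l * (1 / G * q ^ 2)) := by
  have key : ((1 - l) * F + l * G) * ((1 - l) * (1 / F * p ^ 2) + l * (1 / G * q ^ 2))
      - ((1 - l) * p + l * q) ^ 2 = l * (1 - l) * (F * q - G * p) ^ 2 / (F * G) := by
    field_simp
    ring
  have h2 : 0 ≤ l * (1 - l) * (F * q - G * p) ^ 2 / (F * G) := by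
    have : 0 ≤ 1 - l := by linarith
    positivity
  linarith

/-- **Brunn-Minkowski inequality** for bounded convex sets in the plane. -/
theorem bm_plane {X Y Z : Set (ℝ × ℝ)} (hX : Convex ℝ X) (hY : Convex ℝ Y)
    (hXm : MeasurableSet X) (hYm : MeasurableSet Y) (hZm : MeasurableSet Z)
    (hXb : Bornology.IsBounded X) (hYb : Bornology.IsBounded Y) (hZb : Bornology.IsBounded Z)
    (hXne : X.Nonempty) (hYne : Y.Nonempty)
    {l : ℝ} (hl0 : 0 ≤ l) (hl1 : l ≤ 1)
    (hZ : ∀ p ∈ X, ∀ q ∈ Y, (1 - l) • p + l • q ∈ Z) :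
    (1 - l) * √(volume X).toReal + l * √(volume Y).toReal ≤ √(volume Z).toReal := by
  have hl1' : 0 ≤ 1 - l := by linarith
  have hXfin : volume X ≠ ⊤ := hXb.measure_lt_top.ne
  have hYfin : volume Y ≠ ⊤ := hYb.measure_lt_top.ne
  have hZfin : volume Z ≠ ⊤ := hZb.measure_lt_top.ne
  have := isAddHaarMeasure_volume_prod2
  have hfin2 : Module.finrank ℝ (ℝ × ℝ) = 2 := by simp
  by_cases hX0 : volume X = 0
  · obtain ⟨p0, hp0⟩ := hXne
    have hsub : AffineMap.homothety p0 l '' Y ⊆ Z := by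
      rintro _ ⟨q, hq, rfl⟩
      have h1 := hZ p0 hp0 q hq
      have h2 : AffineMap.homothety p0 l q = (1 - l) • p0 + l • q := by
        rw [AffineMap.homothety_apply, vsub_eq_sub, vadd_eq_add]
        module
      rw [h2]
      exact h1
    have hv : volume (AffineMap.homothety p0 l '' Y) = ENNReal.ofReal (l ^ 2) * volume Y := by
      rw [Measure.addHaar_image_homothety, hfin2, abs_of_nonneg (sq_nonneg l)]
    have h3 : ENNReal.ofReal (l ^ 2) * volume Y ≤ volume Z := hv ▸ measure_mono hsub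
    have h4 := ENNReal.toReal_mono hZfin h3
    rw [ENNReal.toReal_mul, ENNReal.toReal_ofReal (sq_nonneg l)] at h4
    rw [hX0]
    simp only [ENNReal.toReal_zero, Real.sqrt_zero, mul_zero, zero_add]
    apply Real.le_sqrt_of_sq_le
    rw [mul_pow, Real.sq_sqrt ENNReal.toReal_nonneg]
    exact h4
  by_cases hY0 : volume Y = 0
  · obtain ⟨q0, hq0⟩ := hYne
    have hsub : AffineMap.homothety q0 (1 - l) '' X ⊆ Z := by
      rintro _ ⟨p, hp, rfl⟩
      have h1 := hZ p hp q0 hq0
      have h2 : AffineMap.homothety q0 (1 - l) p = (1 - l) • p + l • q0 := by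
        rw [AffineMap.homothety_apply, vsub_eq_sub, vadd_eq_add]
        module
      rw [h2]
      exact h1
    have hv : volume (AffineMap.homothety q0 (1 - l) '' X)
        = ENNReal.ofReal ((1 - l) ^ 2) * volume X := by
      rw [Measure.addHaar_image_homothety, hfin2, abs_of_nonneg (sq_nonneg (1 - l))]
    have h3 : ENNReal.ofReal ((1 - l) ^ 2) * volume X ≤ volume Z := hv ▸ measure_mono hsub
    have h4 := ENNReal.toReal_mono hZfin h3
    rw [ENNReal.toReal_mul, ENNReal.toReal_ofReal (sq_nonneg (1 - l))] at h4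
    rw [hY0]
    simp only [ENNReal.toReal_zero, Real.sqrt_zero, mul_zero, add_zero]
    apply Real.le_sqrt_of_sq_le
    rw [mul_pow, Real.sq_sqrt ENNReal.toReal_nonneg]
    exact h4
  -- main case
  obtain ⟨RX, hRX⟩ := secLen_le hXb
  obtain ⟨RY, hRY⟩ := secLen_le hYb
  obtain ⟨x0, hx0⟩ := exists_secLen_pos hXm hXb hX0
  obtain ⟨y0, hy0⟩ := exists_secLen_pos hYm hYb hY0
  have hbX : BddAbove (range (secLen X)) := ⟨RX, by rintro _ ⟨x, rfl⟩; exact hRX x⟩
  have hbY : BddAbove (range (secLen Y)) := ⟨RY, by rintro _ ⟨x, rfl⟩; exact hRY x⟩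
  set F := sSup (range (secLen X)) with hFdef
  set G := sSup (range (secLen Y)) with hGdef
  have hfF : ∀ x, secLen X x ≤ F := fun x => le_csSup hbX (mem_range_self x)
  have hgG : ∀ x, secLen Y x ≤ G := fun x => le_csSup hbY (mem_range_self x)
  have hF : 0 < F := lt_of_lt_of_le hx0 (hfF x0)
  have hG : 0 < G := lt_of_lt_of_le hy0 (hgG y0)
  have hFs : ∀ θ, θ < 1 → ∃ x, F * θ < secLen X x := by
    intro θ hθ
    have h1 : F * θ < F := by nlinarith
    obtain ⟨_, ⟨x, rfl⟩, hx⟩ := exists_lt_of_lt_csSup (range_nonempty _) h1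
    exact ⟨x, hx⟩
  have hGs : ∀ θ, θ < 1 → ∃ x, G * θ < secLen Y x := by
    intro θ hθ
    have h1 : G * θ < G := by nlinarith
    obtain ⟨_, ⟨x, rfl⟩, hx⟩ := exists_lt_of_lt_csSup (range_nonempty _) h1
    exact ⟨x, hx⟩
  have hbbl := bbl_one (secLen X) (secLen Y) (secLen Z) (secLen_nonneg X) (secLen_nonneg Y)
    (secLen_nonneg Z) (secLen_measurable hXm) (secLen_measurable hYm) (secLen_measurable hZm)
    F G hF hG hfF hgG hFs hGs (secLen_superlevel_convex hX hXb) (secLen_superlevel_convex hY hYb)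
    (secLen_support_bounded hXb) (secLen_support_bounded hYb) l hl0 hl1
    (secLen_combo hX hY hXb hYb hZb hl0 hl1 hZ)
  rw [lintegral_secLen hXm hXb, lintegral_secLen hYm hYb, lintegral_secLen hZm hZb] at hbbl
  have hM : 0 ≤ (1 - l) * F + l * G := by positivity
  have h5 := ENNReal.toReal_mono hZfin hbbl
  rw [ENNReal.toReal_mul, ENNReal.toReal_add
      (ENNReal.mul_ne_top ENNReal.ofReal_ne_top (ENNReal.mul_ne_top ENNReal.ofReal_ne_top hXfin))
      (ENNReal.mul_ne_top ENNReal.ofReal_ne_top (ENNReal.mul_ne_top ENNReal.ofReal_ne_top hYfin)),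
    ENNReal.toReal_mul, ENNReal.toReal_mul, ENNReal.toReal_mul, ENNReal.toReal_mul,
    ENNReal.toReal_ofReal hM, ENNReal.toReal_ofReal hl1', ENNReal.toReal_ofReal hl0,
    ENNReal.toReal_ofReal (by positivity), ENNReal.toReal_ofReal (by positivity)] at h5
  apply Real.le_sqrt_of_sq_le
  refine le_trans (cs_aux F G _ _ l hF hG hl0 hl1) ?_
  rw [Real.sq_sqrt ENNReal.toReal_nonneg, Real.sq_sqrt ENNReal.toReal_nonneg]
  exact h5

end Vale.Agent.Lib.P243.H19
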