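import Mathlib

open MeasureTheory Set

namespace Vale.Agent.Lib.P243.H19


theorem integral_sq_lin (A c a b : ℝ) :
    ∫ t in a..b, A * (1 - c * t) ^ 2
      = A * ((b - a) - c * (b ^ 2 - a ^ 2) + c ^ 2 * (b ^ 3 - a ^ 3) / 3) := by
  have h : (fun t : ℝ => A * (1 - c * t) ^ 2)
      = fun t : ℝ => A + (-2 * A * c) * t + (A * c ^ 2) * t ^ 2 := by
    funext t; ring
  rw [h]
  have i1 : IntervalIntegrable (fun t : ℝ => A + (-2 * A * c) * t) volume a b :=
    Continuous.intervalIntegrable (by fun_prop) _ _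
  have i2 : IntervalIntegrable (fun t : ℝ => (A * c ^ 2) * t ^ 2) volume a b :=
    Continuous.intervalIntegrable (by fun_prop) _ _
  have i3 : IntervalIntegrable (fun _ : ℝ => A) volume a b :=
    Continuous.intervalIntegrable (by fun_prop) _ _
  have i4 : IntervalIntegrable (fun t : ℝ => (-2 * A * c) * t) volume a b :=
    Continuous.intervalIntegrable (by fun_prop) _ _
  rw [intervalIntegral.integral_add i1 i2,
    intervalIntegral.integral_add i3 i4,
    intervalIntegral.integral_const_mul, intervalIntegral.integral_const_mul,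
    integral_id, integral_pow, intervalIntegral.integral_const]
  simp only [smul_eq_mul]
  norm_num
  ring

theorem lintegral_sq_lin_Ioo (A c a b : ℝ) (hA : 0 ≤ A) (hab : a ≤ b) :
    ∫⁻ t in Ioo a b, ENNReal.ofReal (A * (1 - c * t) ^ 2)
      = ENNReal.ofReal (A * ((b - a) - c * (b ^ 2 - a ^ 2) + c ^ 2 * (b ^ 3 - a ^ 3) / 3)) := by
  rw [← ofReal_integral_eq_lintegral_ofReal]
  · congr 1
    rw [← integral_Ioc_eq_integral_Ioo, ← intervalIntegral.integral_of_le hab, integral_sq_lin]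
  · exact (Continuous.integrableOn_Icc (by fun_prop)).mono_set Ioo_subset_Icc_self
  · exact Filter.Eventually.of_forall fun t => mul_nonneg hA (sq_nonneg _)

/-- shape bounds from the Brunn-Minkowski property of the profile -/
theorem profile_shape (φ : ℝ → ℝ) (L : ℝ)
    (hφ0 : ∀ t, 0 ≤ φ t)
    (hL : ∀ t, L ≤ t → φ t = 0)
    (hpos : 0 < φ 0)
    (hbm : ∀ t, 0 ≤ t → 0 < φ t → ∀ l, 0 ≤ l → l ≤ 1 →
       (1 - l) * √(φ 0) + l * √(φ t) ≤ √(φ (l * t)))
    (s : ℝ) (hs0 : 0 < s) (hs1 : s < 1)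
    (tstar : ℝ) (htstar : 0 < tstar) (hφstar : 0 < φ tstar) :
    ∃ τ : ℝ, 0 < τ ∧
      (∀ t, 0 ≤ t → t < τ → φ 0 * (1 - (1 - s) / τ * t) ^ 2 ≤ φ t) ∧
      (∀ t, τ < t → t ≤ τ / (1 - s) → φ t ≤ φ 0 * (1 - (1 - s) / τ * t) ^ 2) ∧
      (∀ t, τ / (1 - s) ≤ t → φ t = 0) := by
  set P := √(φ 0) with hP
  have hPpos : 0 < P := Real.sqrt_pos.mpr hpos
  have hPsq : P ^ 2 = φ 0 := Real.sq_sqrt hpos.le
  have hψ0 : ∀ t, 0 ≤ √(φ t) := fun t => Real.sqrt_nonneg _
  have hψsq : ∀ t, √(φ t) ^ 2 = φ t := fun t => Real.sq_sqrt (hφ0 t)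
  let Θ : Set ℝ := {t | 0 ≤ t ∧ s * P ≤ √(φ t)}
  have hsP : 0 < s * P := mul_pos hs0 hPpos
  have hΘL : ∀ t ∈ Θ, t < L := by
    intro t ht
    by_contra hcon
    have hcon := not_lt.mp hcon
    have h1 := hL t hcon
    have h2 : s * P ≤ √(φ t) := ht.2
    rw [h1, Real.sqrt_zero] at h2
    linarith
  have hΘbdd : BddAbove Θ := ⟨L, fun t ht => (hΘL t ht).le⟩
  have h0Θ : (0:ℝ) ∈ Θ := by
    refine ⟨le_rfl, ?_⟩
    show s * P ≤ √(φ 0)
    rw [← hP]; nlinarith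
  have ht1 : (1 - s) * tstar ∈ Θ := by
    refine ⟨by nlinarith, ?_⟩
    have h1 := hbm tstar htstar.le hφstar (1 - s) (by linarith) (by linarith)
    have h2 := hψ0 tstar
    show s * P ≤ √(φ ((1 - s) * tstar))
    nlinarith
  set τ := sSup Θ with hτ
  have hτpos : 0 < τ :=
    lt_of_lt_of_le (by nlinarith : 0 < (1 - s) * tstar) (le_csSup hΘbdd ht1)
  have hnotΘ : ∀ t, τ < t → √(φ t) < s * P := by
    intro t ht
    by_contra hcon
    have hcon := not_lt.mp hcon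
    have : t ∈ Θ := ⟨by linarith, hcon⟩
    have := le_csSup hΘbdd this
    linarith
  set c := (1 - s) / τ with hc
  have hcτ : c * τ = 1 - s := by rw [hc]; field_simp
  have hcpos : 0 < c := by rw [hc]; apply div_pos <;> linarith
  -- lower bound
  have hLB : ∀ t, 0 ≤ t → t < τ → P * (1 - c * t) ≤ √(φ t) := by
    intro t ht0 htτ
    by_contra hcon
    have hcon := not_le.mp hcon
    have hψP : √(φ t) < P := by
      have : P * (1 - c * t) ≤ P := by nlinarith [mul_nonneg hcpos.le ht0]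
      linarith
    set u0 := (1 - s) * t * P / (P - √(φ t)) with hu0
    have hu0τ : u0 < τ := by
      rw [hu0, div_lt_iff₀ (by linarith)]
      have h1 : τ * (P * (1 - c * t)) = τ * P - (1 - s) * t * P := by
        have : τ * c = 1 - s := by rw [mul_comm]; exact hcτ
        calc τ * (P * (1 - c * t)) = τ * P - (τ * c) * t * P := by ring
          _ = τ * P - (1 - s) * t * P := by rw [this]
      have h2 : τ * √(φ t) < τ * (P * (1 - c * t)) := mul_lt_mul_of_pos_left hcon hτpos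
      nlinarith
    obtain ⟨t', ht'Θ, ht'⟩ := exists_lt_of_lt_csSup ⟨0, h0Θ⟩ (max_lt hu0τ htτ)
    have ht't : t < t' := lt_of_le_of_lt (le_max_right _ _) ht'
    have hu0t' : u0 < t' := lt_of_le_of_lt (le_max_left _ _) ht'
    have ht'pos : 0 < t' := lt_of_le_of_lt ht0 ht't
    have hψt' : s * P ≤ √(φ t') := ht'Θ.2
    have hφt' : 0 < φ t' := by
      have : 0 < √(φ t') := lt_of_lt_of_le hsP hψt'
      exact Real.sqrt_pos.mp this
    have h3 := hbm t' ht'pos.le hφt' (t / t') (by positivity)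
      (by rw [div_le_one ht'pos]; exact ht't.le)
    rw [div_mul_cancel₀ t ht'pos.ne'] at h3
    -- from hu0t'
    have h4 : (1 - s) * t * P < t' * (P - √(φ t)) := by
      rw [hu0, div_lt_iff₀ (by linarith)] at hu0t'
      exact hu0t'
    have h5 : (1 - t / t') * P + t / t' * (s * P) ≤ √(φ t) := by
      have : t / t' * (s * P) ≤ t / t' * √(φ t') :=
        mul_le_mul_of_nonneg_left hψt' (by positivity)
      linarith
    have h6 : t' * ((1 - t / t') * P + t / t' * (s * P)) = t' * P - (1 - s) * t * P := by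
      field_simp
      ring
    have h7 : t' * ((1 - t / t') * P + t / t' * (s * P)) ≤ t' * √(φ t) :=
      mul_le_mul_of_nonneg_left h5 ht'pos.le
    nlinarith
  -- upper bound
  have hUB : ∀ t, τ < t → 0 < φ t → √(φ t) ≤ P * (1 - c * t) := by
    intro t htτ hφt
    by_contra hcon
    have hcon := not_le.mp hcon
    have htpos : 0 < t := lt_trans hτpos htτ
    set l0 := τ / t with hl0
    have hl0pos : 0 < l0 := div_pos hτpos htpos
    have hl01 : l0 < 1 := by rw [hl0, div_lt_one htpos]; exact htτ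
    have hl0t : l0 * t = τ := by rw [hl0]; field_simp
    set δ := (1 - l0) * P + l0 * √(φ t) - s * P with hδ
    have hδpos : 0 < δ := by
      have h1 : l0 * (P * (1 - c * t)) < l0 * √(φ t) := mul_lt_mul_of_pos_left hcon hl0pos
      have h2 : l0 * (P * (1 - c * t)) = l0 * P - (1 - s) * P := by
        calc l0 * (P * (1 - c * t)) = l0 * P - c * (l0 * t) * P := by ring
          _ = l0 * P - (1 - s) * P := by rw [hl0t, hcτ]
      rw [hδ]; nlinarith
    set ε := min (1 - l0) (δ / (2 * P)) with hε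
    have hεpos : 0 < ε := lt_min (by linarith) (by positivity)
    have hε1 : ε ≤ 1 - l0 := min_le_left _ _
    have hε2 : ε ≤ δ / (2 * P) := min_le_right _ _
    have hε2' : ε * P ≤ δ / 2 := by
      have := mul_le_mul_of_nonneg_right hε2 hPpos.le
      have h : δ / (2 * P) * P = δ / 2 := by field_simp
      linarith
    have h3 := hbm t htpos.le hφt (l0 + ε) (by linarith) (by linarith)
    have h4 : τ < (l0 + ε) * t := by
      have : (l0 + ε) * t = τ + ε * t := by rw [add_mul, hl0t]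
      rw [this]
      have := mul_pos hεpos htpos
      linarith
    have h5 := hnotΘ _ h4
    have h6 := hψ0 t
    nlinarith
  refine ⟨τ, hτpos, ?_, ?_, ?_⟩
  · intro t ht0 htτ
    have h1 := hLB t ht0 htτ
    have h2 : 0 ≤ 1 - c * t := by
      have : c * t ≤ c * τ := mul_le_mul_of_nonneg_left htτ.le hcpos.le
      linarith
    have h3 : (P * (1 - c * t)) ^ 2 ≤ √(φ t) ^ 2 :=
      pow_le_pow_left₀ (mul_nonneg hPpos.le h2) h1 2
    rw [hψsq, mul_pow, hPsq] at h3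
    exact h3
  · intro t htτ htT
    rcases eq_or_lt_of_le (hφ0 t) with h0 | h0
    · rw [← h0]; exact mul_nonneg hpos.le (sq_nonneg _)
    · have h1 := hUB t htτ h0
      have h3 : √(φ t) ^ 2 ≤ (P * (1 - c * t)) ^ 2 :=
        pow_le_pow_left₀ (hψ0 t) h1 2
      rw [hψsq, mul_pow, hPsq] at h3
      exact h3
  · intro t htT
    by_contra hcon
    have h0 : 0 < φ t := lt_of_le_of_ne (hφ0 t) (Ne.symm hcon)
    have hτt : τ < t := by
      have : τ < τ / (1 - s) := by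
        rw [lt_div_iff₀ (by linarith)]
        nlinarith
      linarith
    have h1 := hUB t hτt h0
    have h2 : 1 - c * t ≤ 0 := by
      have h3 : c * (τ / (1 - s)) = 1 := by
        rw [hc]; field_simp
        exact div_self (by linarith)
      have : c * (τ / (1 - s)) ≤ c * t := mul_le_mul_of_nonneg_left htT hcpos.le
      linarith
    have h4 : 0 < √(φ t) := Real.sqrt_pos.mpr h0
    nlinarith



theorem profile_alg (A τ s : ℝ) (hs1 : s < 1) (hτ : 0 < τ) :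
    s ^ 2 * A * τ + (1 - (3 * s ^ 2 - 2 * s ^ 3)) *
        (A * ((τ / (1 - s) - τ) - (1 - s) / τ * ((τ / (1 - s)) ^ 2 - τ ^ 2)
          + ((1 - s) / τ) ^ 2 * ((τ / (1 - s)) ^ 3 - τ ^ 3) / 3))
      = (3 * s ^ 2 - 2 * s ^ 3) *
        (A * ((τ - 0) - (1 - s) / τ * (τ ^ 2 - 0 ^ 2) + ((1 - s) / τ) ^ 2 * (τ ^ 3 - 0 ^ 3) / 3)) := by
  have h1 : (1 - s) ≠ 0 := by linarith
  have h2 : τ ≠ 0 := hτ.ne'
  field_simp
  ring

theorem profile_U2 (A τ s : ℝ) (hs1 : s < 1) (hτ : 0 < τ) :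
    A * ((τ / (1 - s) - τ) - (1 - s) / τ * ((τ / (1 - s)) ^ 2 - τ ^ 2)
          + ((1 - s) / τ) ^ 2 * ((τ / (1 - s)) ^ 3 - τ ^ 3) / 3)
      = A * τ * s ^ 3 / (3 * (1 - s)) := by
  have h1 : (1 - s) ≠ 0 := by linarith
  have h2 : τ ≠ 0 := hτ.ne'
  field_simp
  ring

theorem profile_U1 (A τ s : ℝ) (hτ : 0 < τ) :
    A * ((τ - 0) - (1 - s) / τ * (τ ^ 2 - 0 ^ 2) + ((1 - s) / τ) ^ 2 * (τ ^ 3 - 0 ^ 3) / 3)
      = A * τ * (1 + s + s ^ 2) / 3 := by
  have h2 : τ ≠ 0 := hτ.ne'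
  field_simp
  ring


theorem profile_bound (φ : ℝ → ℝ) (L : ℝ)
    (hφ0 : ∀ t, 0 ≤ φ t)
    (hL : ∀ t, L ≤ t → φ t = 0)
    (hpos : 0 < φ 0)
    (hbm : ∀ t, 0 ≤ t → 0 < φ t → ∀ l, 0 ≤ l → l ≤ 1 →
       (1 - l) * √(φ 0) + l * √(φ t) ≤ √(φ (l * t)))
    (s : ℝ) (hs0 : 0 ≤ s) (hs1 : s ≤ 1) :
    ∫⁻ t in Ioi (0:ℝ), ENNReal.ofReal (min (s ^ 2 * φ 0) (φ t))
      ≤ ENNReal.ofReal (3 * s ^ 2 - 2 * s ^ 3) * ∫⁻ t in Ioi (0:ℝ), ENNReal.ofReal (φ t) := by
  rcases eq_or_lt_of_le hs1 with rfl | hs1'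
  · have h1 : (3 * (1:ℝ) ^ 2 - 2 * 1 ^ 3) = 1 := by norm_num
    rw [h1, ENNReal.ofReal_one, one_mul]
    exact lintegral_mono fun t => ENNReal.ofReal_le_ofReal (min_le_right _ _)
  by_cases hall : ∀ t, 0 < t → φ t = 0
  · have h0 : ∫⁻ t in Ioi (0:ℝ), ENNReal.ofReal (min (s ^ 2 * φ 0) (φ t)) = 0 := by
      rw [← nonpos_iff_eq_zero]
      calc ∫⁻ t in Ioi (0:ℝ), ENNReal.ofReal (min (s ^ 2 * φ 0) (φ t))
          ≤ ∫⁻ _ in Ioi (0:ℝ), (0 : ENNReal) := by
            apply setLIntegral_mono' measurableSet_Ioi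
            intro t ht
            rw [hall t ht]
            exact ENNReal.ofReal_le_of_le_toReal (by simp)
        _ = 0 := by simp
    rw [h0]; exact bot_le
  have hall' : ∃ t, 0 < t ∧ φ t ≠ 0 := by
    by_contra hcon
    apply hall
    intro t ht
    by_contra h
    exact hcon ⟨t, ht, h⟩
  obtain ⟨tstar, htstar, hφstar⟩ := hall'
  have hφstar' : 0 < φ tstar := lt_of_le_of_ne (hφ0 _) (Ne.symm hφstar)
  rcases eq_or_lt_of_le hs0 with rfl | hs0'
  · have h0 : ∫⁻ t in Ioi (0:ℝ), ENNReal.ofReal (min ((0:ℝ) ^ 2 * φ 0) (φ t)) = 0 := by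
      rw [← nonpos_iff_eq_zero]
      calc ∫⁻ t in Ioi (0:ℝ), ENNReal.ofReal (min ((0:ℝ) ^ 2 * φ 0) (φ t))
          ≤ ∫⁻ _ in Ioi (0:ℝ), (0 : ENNReal) := by
            apply lintegral_mono
            intro t
            apply ENNReal.ofReal_le_of_le_toReal
            have : min ((0:ℝ) ^ 2 * φ 0) (φ t) ≤ (0:ℝ) ^ 2 * φ 0 := min_le_left _ _
            simp
        _ = 0 := by simp
    rw [h0]; exact bot_le
  obtain ⟨τ, hτpos, hLB, hUB, hZ⟩ :=
    profile_shape φ L hφ0 hL hpos hbm s hs0' hs1' tstar htstar hφstar'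
  set A := φ 0 with hA
  set c := (1 - s) / τ with hc
  set T := τ / (1 - s) with hT
  have hτT : τ < T := by
    rw [hT, lt_div_iff₀ (by linarith)]
    nlinarith
  set J1 := ∫⁻ t in Ioc (0:ℝ) τ, ENNReal.ofReal (φ t) with hJ1
  set J2 := ∫⁻ t in Ioi τ, ENNReal.ofReal (φ t) with hJ2
  set U1 := A * ((τ - 0) - c * (τ ^ 2 - 0 ^ 2) + c ^ 2 * (τ ^ 3 - 0 ^ 3) / 3) with hU1
  set U2 := A * ((T - τ) - c * (T ^ 2 - τ ^ 2) + c ^ 2 * (T ^ 3 - τ ^ 3) / 3) with hU2
  have hdisj : Disjoint (Ioc (0:ℝ) τ) (Ioi τ) :=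
    Set.disjoint_left.mpr fun x hx hx' => absurd hx.2 (not_le.mpr hx')
  -- X bound
  have hX : ∫⁻ t in Ioi (0:ℝ), ENNReal.ofReal (min (s ^ 2 * A) (φ t))
      ≤ ENNReal.ofReal (s ^ 2 * A * τ) + J2 := by
    rw [← Ioc_union_Ioi_eq_Ioi hτpos.le, lintegral_union measurableSet_Ioi hdisj]
    apply add_le_add
    · calc ∫⁻ t in Ioc (0:ℝ) τ, ENNReal.ofReal (min (s ^ 2 * A) (φ t))
          ≤ ∫⁻ _ in Ioc (0:ℝ) τ, ENNReal.ofReal (s ^ 2 * A) :=
            lintegral_mono fun t => ENNReal.ofReal_le_ofReal (min_le_left _ _)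
        _ = ENNReal.ofReal (s ^ 2 * A * τ) := by
            rw [setLIntegral_const, Real.volume_Ioc, sub_zero,
              ← ENNReal.ofReal_mul (by positivity)]
    · exact lintegral_mono fun t => ENNReal.ofReal_le_ofReal (min_le_right _ _)
  -- Y split
  have hY : ∫⁻ t in Ioi (0:ℝ), ENNReal.ofReal (φ t) = J1 + J2 := by
    rw [← Ioc_union_Ioi_eq_Ioi hτpos.le, lintegral_union measurableSet_Ioi hdisj]
  -- J1 lower bound
  have hJ1lb : ENNReal.ofReal U1 ≤ J1 := by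
    rw [hU1, ← lintegral_sq_lin_Ioo A c 0 τ hpos.le hτpos.le]
    calc ∫⁻ t in Ioo (0:ℝ) τ, ENNReal.ofReal (A * (1 - c * t) ^ 2)
        ≤ ∫⁻ t in Ioo (0:ℝ) τ, ENNReal.ofReal (φ t) := by
          apply setLIntegral_mono' measurableSet_Ioo
          intro t ht
          exact ENNReal.ofReal_le_ofReal (hLB t ht.1.le ht.2)
      _ ≤ J1 := lintegral_mono_set Ioo_subset_Ioc_self
  -- J2 upper bound
  have hdisj2 : Disjoint (Ioo τ T) (Ici T) :=
    Set.disjoint_left.mpr fun x hx hx' => absurd hx.2 (not_lt.mpr hx')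
  have hJ2ub : J2 ≤ ENNReal.ofReal U2 := by
    rw [hJ2, ← Ioo_union_Ici_eq_Ioi hτT, lintegral_union measurableSet_Ici hdisj2]
    have h1 : ∫⁻ t in Ici T, ENNReal.ofReal (φ t) = 0 := by
      rw [← nonpos_iff_eq_zero]
      calc ∫⁻ t in Ici T, ENNReal.ofReal (φ t)
          ≤ ∫⁻ _ in Ici T, (0 : ENNReal) := by
            apply setLIntegral_mono' measurableSet_Ici
            intro t ht
            rw [hZ t ht]
            simp
        _ = 0 := by simp
    rw [h1, add_zero, hU2, ← lintegral_sq_lin_Ioo A c τ T hpos.le hτT.le]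
    apply setLIntegral_mono' measurableSet_Ioo
    intro t ht
    exact ENNReal.ofReal_le_ofReal (hUB t ht.1 ht.2.le)
  -- real identities
  have hU2eq : U2 = A * τ * s ^ 3 / (3 * (1 - s)) := profile_U2 A τ s hs1' hτpos
  have hU1eq : U1 = A * τ * (1 + s + s ^ 2) / 3 := profile_U1 A τ s hτpos
  have halg : s ^ 2 * A * τ + (1 - (3 * s ^ 2 - 2 * s ^ 3)) * U2
      = (3 * s ^ 2 - 2 * s ^ 3) * U1 := profile_alg A τ s hs1' hτpos
  have hU2nn : 0 ≤ U2 := by
    rw [hU2eq]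
    apply div_nonneg
    · have := hpos.le
      positivity
    · linarith
  have hU1nn : 0 ≤ U1 := by
    rw [hU1eq]
    have := hpos.le
    positivity
  have hch : 0 ≤ 3 * s ^ 2 - 2 * s ^ 3 := by nlinarith [sq_nonneg s]
  have hch1 : 0 ≤ 1 - (3 * s ^ 2 - 2 * s ^ 3) := by
    have : 1 - (3 * s ^ 2 - 2 * s ^ 3) = (1 - s) ^ 2 * (1 + 2 * s) := by ring
    rw [this]; positivity
  have hJ2fin : J2 ≠ ⊤ := ne_top_of_le_ne_top ENNReal.ofReal_ne_top hJ2ub
  set j := J2.toReal with hj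
  have hjnn : 0 ≤ j := ENNReal.toReal_nonneg
  have hjle : j ≤ U2 := ENNReal.toReal_le_of_le_ofReal hU2nn hJ2ub
  have hJ2j : J2 = ENNReal.ofReal j := (ENNReal.ofReal_toReal hJ2fin).symm
  have hreal : s ^ 2 * A * τ + j ≤ (3 * s ^ 2 - 2 * s ^ 3) * (U1 + j) := by
    have h1 : (1 - (3 * s ^ 2 - 2 * s ^ 3)) * j ≤ (1 - (3 * s ^ 2 - 2 * s ^ 3)) * U2 :=
      mul_le_mul_of_nonneg_left hjle hch1
    linarith
  calc ∫⁻ t in Ioi (0:ℝ), ENNReal.ofReal (min (s ^ 2 * A) (φ t))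
      ≤ ENNReal.ofReal (s ^ 2 * A * τ) + J2 := hX
    _ = ENNReal.ofReal (s ^ 2 * A * τ + j) := by
        rw [hJ2j, ← ENNReal.ofReal_add (by have := hpos.le; positivity) hjnn]
    _ ≤ ENNReal.ofReal ((3 * s ^ 2 - 2 * s ^ 3) * (U1 + j)) := ENNReal.ofReal_le_ofReal hreal
    _ = ENNReal.ofReal (3 * s ^ 2 - 2 * s ^ 3) * (ENNReal.ofReal U1 + ENNReal.ofReal j) := by
        rw [ENNReal.ofReal_mul hch, ENNReal.ofReal_add hU1nn hjnn]
    _ ≤ ENNReal.ofReal (3 * s ^ 2 - 2 * s ^ 3) * (J1 + J2) := by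
        rw [← hJ2j]
        gcongr
    _ = ENNReal.ofReal (3 * s ^ 2 - 2 * s ^ 3) * ∫⁻ t in Ioi (0:ℝ), ENNReal.ofReal (φ t) := by
        rw [hY]

end Vale.Agent.Lib.P243.H19
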