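import Mathlib
import Vale.Agent.Lib.P243.H19.Planar
import Vale.Agent.Lib.P243.H19.Profile

open MeasureTheory Set

namespace Vale.Agent.Lib.P243.H19

/-- length of the vertical chord of `K ⊆ (ℝ × ℝ) × ℝ` over the point `p` -/
noncomputable def chordLen (K : Set ((ℝ × ℝ) × ℝ)) (p : ℝ × ℝ) : ℝ :=
  (volume (Prod.mk p ⁻¹' K)).toReal

theorem chord_subset_Icc {K : Set ((ℝ × ℝ) × ℝ)} (hKb : Bornology.IsBounded K) :
    ∃ R : ℝ, 0 ≤ R ∧ ∀ p : ℝ × ℝ, Prod.mk p ⁻¹' K ⊆ Icc (-R) R := by
  obtain ⟨R, hR⟩ := hKb.exists_norm_le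
  refine ⟨max R 0, le_max_right _ _, fun p z hz => ?_⟩
  have h1 : ‖((p, z) : (ℝ × ℝ) × ℝ)‖ ≤ R := hR _ hz
  have h2 : |z| ≤ ‖((p, z) : (ℝ × ℝ) × ℝ)‖ := by
    rw [Prod.norm_def]
    exact le_max_right _ _
  have h3 : |z| ≤ max R 0 := (h2.trans h1).trans (le_max_left _ _)
  exact ⟨by linarith [neg_abs_le z], (le_abs_self z).trans h3⟩

theorem chord_bounded {K : Set ((ℝ × ℝ) × ℝ)} (hKb : Bornology.IsBounded K) (p : ℝ × ℝ) :
    Bornology.IsBounded (Prod.mk p ⁻¹' K) := by
  obtain ⟨R, -, hR⟩ := chord_subset_Icc hKb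
  exact (Metric.isBounded_Icc (-R) R).subset (hR p)

theorem chord_volume_ne_top {K : Set ((ℝ × ℝ) × ℝ)} (hKb : Bornology.IsBounded K) (p : ℝ × ℝ) :
    volume (Prod.mk p ⁻¹' K) ≠ ⊤ :=
  (chord_bounded hKb p).measure_lt_top.ne

theorem chord_convex {K : Set ((ℝ × ℝ) × ℝ)} (hK : Convex ℝ K) (p : ℝ × ℝ) :
    Convex ℝ (Prod.mk p ⁻¹' K) := by
  intro y1 hy1 y2 hy2 a b ha hb hab
  have h := hK hy1 hy2 ha hb hab
  have h2 : a • ((p, y1) : (ℝ × ℝ) × ℝ) + b • ((p, y2) : (ℝ × ℝ) × ℝ)
      = (p, a • y1 + b • y2) := by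
    refine Prod.ext ?_ ?_
    · simp only [Prod.fst_add, Prod.smul_fst]
      rw [← add_smul, hab, one_smul]
    · simp only [Prod.snd_add, Prod.smul_snd]
  rw [h2] at h
  exact h

theorem chordLen_nonneg (K : Set ((ℝ × ℝ) × ℝ)) (p : ℝ × ℝ) : 0 ≤ chordLen K p :=
  ENNReal.toReal_nonneg

theorem chordLen_measurable {K : Set ((ℝ × ℝ) × ℝ)} (hKm : MeasurableSet K) :
    Measurable (chordLen K) :=
  (measurable_measure_prodMk_left hKm).ennreal_toReal

theorem lintegral_chordLen {K : Set ((ℝ × ℝ) × ℝ)} (hKm : MeasurableSet K)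
    (hKb : Bornology.IsBounded K) : ∫⁻ p, ENNReal.ofReal (chordLen K p) = volume K := by
  have h : volume K = ((volume : Measure (ℝ × ℝ)).prod (volume : Measure ℝ)) K := rfl
  rw [h, Measure.prod_apply hKm]
  apply lintegral_congr
  intro p
  exact ENNReal.ofReal_toReal (chord_volume_ne_top hKb p)

theorem nonempty_of_chordLen_pos {K : Set ((ℝ × ℝ) × ℝ)} {p : ℝ × ℝ} (h : 0 < chordLen K p) :
    (Prod.mk p ⁻¹' K).Nonempty := by
  by_contra hne
  rw [not_nonempty_iff_eq_empty] at hne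
  simp [chordLen, hne] at h

theorem chordLen_le {K : Set ((ℝ × ℝ) × ℝ)} (hKb : Bornology.IsBounded K) :
    ∃ R : ℝ, ∀ p, chordLen K p ≤ R := by
  obtain ⟨R, hR0, hR⟩ := chord_subset_Icc hKb
  refine ⟨2 * R, fun p => ?_⟩
  have h1 : volume (Prod.mk p ⁻¹' K) ≤ ENNReal.ofReal (2 * R) := by
    refine (measure_mono (hR p)).trans ?_
    rw [Real.volume_Icc]
    apply ENNReal.ofReal_le_ofReal
    linarith
  exact ENNReal.toReal_le_of_le_ofReal (by linarith) h1

/-- concavity of the chord length on the shadow -/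
theorem chordLen_concave {K : Set ((ℝ × ℝ) × ℝ)} (hK : Convex ℝ K)
    (hKb : Bornology.IsBounded K) {l : ℝ} (hl0 : 0 ≤ l) (hl1 : l ≤ 1) (p q : ℝ × ℝ)
    (hp : (Prod.mk p ⁻¹' K).Nonempty) (hq : (Prod.mk q ⁻¹' K).Nonempty) :
    (1 - l) * chordLen K p + l * chordLen K q ≤ chordLen K ((1 - l) • p + l • q) := by
  have hl1' : 0 ≤ 1 - l := by linarith
  have h := bm_real (chord_convex hK p) (chord_convex hK q) hp hq
    (chord_bounded hKb p) (chord_bounded hKb q) hl0 hl1
    (S := Prod.mk ((1 - l) • p + l • q) ⁻¹' K) (by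
      intro u hu w hw
      have h1 := hK hu hw hl1' hl0 (by ring)
      have h2 : (1 - l) • ((p, u) : (ℝ × ℝ) × ℝ) + l • ((q, w) : (ℝ × ℝ) × ℝ)
          = ((1 - l) • p + l • q, (1 - l) * u + l * w) := by
        refine Prod.ext ?_ ?_
        · simp only [Prod.fst_add, Prod.smul_fst]
        · simp only [Prod.snd_add, Prod.smul_snd, smul_eq_mul]
      rw [h2] at h1
      exact h1)
  have h2 := ENNReal.toReal_mono (chord_volume_ne_top hKb _) h
  rw [ENNReal.toReal_add (ENNReal.mul_ne_top ENNReal.ofReal_ne_top (chord_volume_ne_top hKb p))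
    (ENNReal.mul_ne_top ENNReal.ofReal_ne_top (chord_volume_ne_top hKb q)),
    ENNReal.toReal_mul, ENNReal.toReal_mul, ENNReal.toReal_ofReal hl1',
    ENNReal.toReal_ofReal hl0] at h2
  exact h2

/-- superlevel sets of the chord length -/
def chordSup (K : Set ((ℝ × ℝ) × ℝ)) (t : ℝ) : Set (ℝ × ℝ) := {p | t < chordLen K p}

theorem chordSup_measurable {K : Set ((ℝ × ℝ) × ℝ)} (hKm : MeasurableSet K) (t : ℝ) :
    MeasurableSet (chordSup K t) :=
  measurableSet_lt measurable_const (chordLen_measurable hKm)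

theorem chordSup_subset_shadow (K : Set ((ℝ × ℝ) × ℝ)) {t : ℝ} (ht : 0 ≤ t) :
    chordSup K t ⊆ Prod.fst '' K := by
  intro p hp
  obtain ⟨z, hz⟩ := nonempty_of_chordLen_pos (lt_of_le_of_lt ht hp)
  exact ⟨(p, z), hz, rfl⟩

theorem chordSup_anti (K : Set ((ℝ × ℝ) × ℝ)) {t u : ℝ} (h : t ≤ u) :
    chordSup K u ⊆ chordSup K t := fun _ hp => lt_of_le_of_lt h hp

theorem chordSup_combo {K : Set ((ℝ × ℝ) × ℝ)} (hK : Convex ℝ K)
    (hKb : Bornology.IsBounded K) {t u l : ℝ} (ht : 0 ≤ t) (hu : 0 ≤ u)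
    (hl0 : 0 ≤ l) (hl1 : l ≤ 1) (p q : ℝ × ℝ) (hp : p ∈ chordSup K t) (hq : q ∈ chordSup K u) :
    (1 - l) • p + l • q ∈ chordSup K ((1 - l) * t + l * u) := by
  have hp' : t < chordLen K p := hp
  have hq' : u < chordLen K q := hq
  have h := chordLen_concave hK hKb hl0 hl1 p q
    (nonempty_of_chordLen_pos (lt_of_le_of_lt ht hp'))
    (nonempty_of_chordLen_pos (lt_of_le_of_lt hu hq'))
  show (1 - l) * t + l * u < chordLen K ((1 - l) • p + l • q)
  refine lt_of_lt_of_le ?_ h
  rcases eq_or_lt_of_le hl0 with h0 | h0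
  · rw [← h0]; simpa using hp'
  · have e1 := mul_le_mul_of_nonneg_left hp'.le (show (0:ℝ) ≤ 1 - l by linarith)
    have e2 := mul_lt_mul_of_pos_left hq' h0
    linarith

theorem chordSup_convex {K : Set ((ℝ × ℝ) × ℝ)} (hK : Convex ℝ K)
    (hKb : Bornology.IsBounded K) {t : ℝ} (ht : 0 ≤ t) : Convex ℝ (chordSup K t) := by
  intro p hp q hq a b ha hb hab
  have hb1 : b ≤ 1 := by linarith
  have ha' : a = 1 - b := by linarith
  have h := chordSup_combo hK hKb ht ht hb hb1 p q hp hq
  have e : (1 - b) * t + b * t = t := by ring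
  rw [e] at h
  rw [ha']
  exact h

theorem shadow_bounded {K : Set ((ℝ × ℝ) × ℝ)} (hKb : Bornology.IsBounded K) :
    Bornology.IsBounded (Prod.fst '' K) := by
  obtain ⟨R, hR⟩ := hKb.exists_norm_le
  refine (Metric.isBounded_closedBall (x := (0 : ℝ × ℝ)) (r := R)).subset ?_
  rintro _ ⟨q, hq, rfl⟩
  rw [mem_closedBall_zero_iff]
  have h1 : ‖q.1‖ ≤ ‖q‖ := by
    rw [Prod.norm_def q]
    exact le_max_left _ _
  exact h1.trans (hR q hq)

theorem chordSup_bounded {K : Set ((ℝ × ℝ) × ℝ)} (hKb : Bornology.IsBounded K) {t : ℝ}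
    (ht : 0 ≤ t) : Bornology.IsBounded (chordSup K t) :=
  (shadow_bounded hKb).subset (chordSup_subset_shadow K ht)

theorem chordSup_bm {K : Set ((ℝ × ℝ) × ℝ)} (hK : Convex ℝ K) (hKm : MeasurableSet K)
    (hKb : Bornology.IsBounded K) (t : ℝ) (ht : 0 ≤ t)
    (hpos : 0 < (volume (chordSup K t)).toReal) (l : ℝ) (hl0 : 0 ≤ l) (hl1 : l ≤ 1) :
    (1 - l) * √(volume (chordSup K 0)).toReal + l * √(volume (chordSup K t)).toReal
      ≤ √(volume (chordSup K (l * t))).toReal := by
  have hne : (chordSup K t).Nonempty := by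
    by_contra h
    rw [not_nonempty_iff_eq_empty] at h
    simp [h] at hpos
  have hne0 : (chordSup K 0).Nonempty := hne.mono (chordSup_anti K ht)
  have hlt : 0 ≤ l * t := mul_nonneg hl0 ht
  exact bm_plane (chordSup_convex hK hKb le_rfl) (chordSup_convex hK hKb ht)
    (chordSup_measurable hKm 0) (chordSup_measurable hKm t) (chordSup_measurable hKm (l * t))
    (chordSup_bounded hKb le_rfl) (chordSup_bounded hKb ht) (chordSup_bounded hKb hlt)
    hne0 hne hl0 hl1 (by
      intro p hp q hq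
      have h := chordSup_combo hK hKb le_rfl ht hl0 hl1 p q hp hq
      have e : (1 - l) * 0 + l * t = l * t := by ring
      rw [e] at h
      exact h)

theorem volume_chordSup_zero {K : Set ((ℝ × ℝ) × ℝ)} (hK : Convex ℝ K)
    (hKb : Bornology.IsBounded K) (p0 : ℝ × ℝ) (hp0 : 0 < chordLen K p0) :
    volume (chordSup K 0) = volume (Prod.fst '' K) := by
  apply le_antisymm (measure_mono (chordSup_subset_shadow K le_rfl))
  have hD : volume (Prod.fst '' K) ≠ ⊤ := (shadow_bounded hKb).measure_lt_top.ne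
  have hS : volume (chordSup K 0) ≠ ⊤ :=
    ne_top_of_le_ne_top hD (measure_mono (chordSup_subset_shadow K le_rfl))
  have key : ∀ μ : ℝ, 0 < μ → μ < 1 →
      ENNReal.ofReal ((1 - μ) ^ 2) * volume (Prod.fst '' K) ≤ volume (chordSup K 0) := by
    intro μ hμ0 hμ1
    have hsub : AffineMap.homothety p0 (1 - μ) '' (Prod.fst '' K) ⊆ chordSup K 0 := by
      rintro _ ⟨p, ⟨q, hq, rfl⟩, rfl⟩
      have hpne : (Prod.mk q.1 ⁻¹' K).Nonempty := ⟨q.2, hq⟩
      have h := chordLen_concave hK hKb (l := 1 - μ) (by linarith) (by linarith) p0 q.1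
        (nonempty_of_chordLen_pos hp0) hpne
      have e : AffineMap.homothety p0 (1 - μ) q.1 = (1 - (1 - μ)) • p0 + (1 - μ) • q.1 := by
        rw [AffineMap.homothety_apply]
        simp only [vsub_eq_sub, vadd_eq_add]
        module
      show 0 < chordLen K _
      rw [e]
      have h2 := chordLen_nonneg K q.1
      nlinarith
    have hh := isAddHaarMeasure_volume_prod2
    calc ENNReal.ofReal ((1 - μ) ^ 2) * volume (Prod.fst '' K)
        = volume (AffineMap.homothety p0 (1 - μ) '' (Prod.fst '' K)) := by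
          rw [Measure.addHaar_image_homothety]
          have hfr : Module.finrank ℝ (ℝ × ℝ) = 2 := by simp
          rw [hfr, abs_of_nonneg (sq_nonneg _)]
      _ ≤ volume (chordSup K 0) := measure_mono hsub
  rw [← ENNReal.ofReal_toReal hD, ← ENNReal.ofReal_toReal hS]
  apply ENNReal.ofReal_le_ofReal
  have key' : ∀ μ : ℝ, 0 < μ → μ < 1 →
      (1 - μ) ^ 2 * (volume (Prod.fst '' K)).toReal ≤ (volume (chordSup K 0)).toReal := by
    intro μ h0 h1
    have := ENNReal.toReal_mono hS (key μ h0 h1)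
    rwa [ENNReal.toReal_mul, ENNReal.toReal_ofReal (sq_nonneg _)] at this
  set d := (volume (Prod.fst '' K)).toReal with hd
  set σ := (volume (chordSup K 0)).toReal with hσ
  by_contra hcon
  have hcon := not_le.mp hcon
  have hσ0 : 0 ≤ σ := ENNReal.toReal_nonneg
  have hdpos : 0 < d := lt_of_le_of_lt hσ0 hcon
  have hμ0 : 0 < (d - σ) / (4 * d) := by
    apply div_pos <;> linarith
  have hμ1 : (d - σ) / (4 * d) < 1 := by
    rw [div_lt_one (by linarith)]
    linarith
  have h := key' _ hμ0 hμ1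
  have e : (d - σ) / (4 * d) * d = (d - σ) / 4 := by field_simp
  nlinarith [sq_nonneg ((d - σ) / (4 * d))]

/-- The concentration bound: a cylinder over a base occupying the fraction `s ^ 2` of the shadow
of a convex body captures at most the fraction `3 s ^ 2 - 2 s ^ 3` of its volume. -/
theorem conc_bound (K : Set ((ℝ × ℝ) × ℝ)) (hKc : IsCompact K) (hK : Convex ℝ K)
    (B : Set (ℝ × ℝ)) (hB : MeasurableSet B) (s : ℝ) (hs0 : 0 ≤ s) (hs1 : s ≤ 1)
    (hBs : volume (B ∩ Prod.fst '' K) ≤ ENNReal.ofReal (s ^ 2) * volume (Prod.fst '' K)) :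
    volume (K ∩ B ×ˢ (univ : Set ℝ)) ≤ ENNReal.ofReal (3 * s ^ 2 - 2 * s ^ 3) * volume K := by
  have hKm : MeasurableSet K := hKc.measurableSet
  have hKb : Bornology.IsBounded K := hKc.isBounded
  set KB := K ∩ B ×ˢ (univ : Set ℝ) with hKB
  have hKBm : MeasurableSet KB := hKm.inter (hB.prod MeasurableSet.univ)
  have hKBb : Bornology.IsBounded KB := hKb.subset inter_subset_left
  have e1 : volume K = ∫⁻ t in Ioi (0:ℝ), volume (chordSup K t) := by
    rw [← lintegral_chordLen hKm hKb]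
    exact lintegral_eq_lintegral_meas_lt volume
      (Filter.Eventually.of_forall (chordLen_nonneg K)) (chordLen_measurable hKm).aemeasurable
  have e2 : volume KB = ∫⁻ t in Ioi (0:ℝ), volume (chordSup KB t) := by
    rw [← lintegral_chordLen hKBm hKBb]
    exact lintegral_eq_lintegral_meas_lt volume
      (Filter.Eventually.of_forall (chordLen_nonneg KB)) (chordLen_measurable hKBm).aemeasurable
  by_cases hK0 : volume K = 0
  · have h0 : volume KB = 0 := measure_mono_null inter_subset_left hK0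
    rw [h0]; exact bot_le
  set φ : ℝ → ℝ := fun t => (volume (chordSup K t)).toReal with hφ
  have hfin : ∀ t, 0 ≤ t → volume (chordSup K t) ≠ ⊤ :=
    fun t ht => (chordSup_bounded hKb ht).measure_lt_top.ne
  have hofφ : ∀ t, 0 ≤ t → ENNReal.ofReal (φ t) = volume (chordSup K t) :=
    fun t ht => ENNReal.ofReal_toReal (hfin t ht)
  have hp0 : ∃ p0, 0 < chordLen K p0 := by
    by_contra hcon
    simp only [not_exists, not_lt] at hcon
    apply hK0
    rw [← lintegral_chordLen hKm hKb]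
    have : ∀ p, ENNReal.ofReal (chordLen K p) = 0 := fun p => ENNReal.ofReal_of_nonpos (hcon p)
    simp [this]
  obtain ⟨p0, hp0⟩ := hp0
  have hS0 : volume (chordSup K 0) = volume (Prod.fst '' K) :=
    volume_chordSup_zero hK hKb p0 hp0
  have hφ0pos : 0 < φ 0 := by
    by_contra hcon
    have h0 : volume (chordSup K 0) = 0 := by
      have : φ 0 = 0 := le_antisymm (not_lt.mp hcon) ENNReal.toReal_nonneg
      rcases (ENNReal.toReal_eq_zero_iff _).mp this with h | h
      · exact h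
      · exact absurd h (hfin 0 le_rfl)
    apply hK0
    rw [e1, ← nonpos_iff_eq_zero]
    calc ∫⁻ t in Ioi (0:ℝ), volume (chordSup K t) ≤ ∫⁻ _ in Ioi (0:ℝ), (0:ENNReal) := by
          apply setLIntegral_mono' measurableSet_Ioi
          intro t ht
          exact (measure_mono (chordSup_anti K (le_of_lt ht))).trans h0.le
      _ = 0 := by simp
  obtain ⟨R, hR⟩ := chordLen_le hKb
  have hprof := profile_bound φ (max R 0) (fun t => ENNReal.toReal_nonneg)
    (by
      intro t ht
      have : chordSup K t = ∅ := by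
        ext p
        simp only [chordSup, mem_ofPred_eq, mem_empty_iff_false, iff_false, not_lt]
        exact (hR p).trans ((le_max_left _ _).trans ht)
      show (volume (chordSup K t)).toReal = 0
      rw [this]; simp)
    hφ0pos
    (by
      intro t ht hpos l hl0 hl1
      exact chordSup_bm hK hKm hKb t ht hpos l hl0 hl1)
    s hs0 hs1
  calc volume KB = ∫⁻ t in Ioi (0:ℝ), volume (chordSup KB t) := e2
    _ ≤ ∫⁻ t in Ioi (0:ℝ), ENNReal.ofReal (min (s ^ 2 * φ 0) (φ t)) := by
        apply setLIntegral_mono' measurableSet_Ioi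
        intro t ht
        have ht0 : (0:ℝ) ≤ t := le_of_lt ht
        have hsub1 : chordSup KB t ⊆ chordSup K t := by
          intro p hp
          have h1 : chordLen KB p ≤ chordLen K p :=
            ENNReal.toReal_mono (chord_volume_ne_top hKb p)
              (measure_mono (preimage_mono inter_subset_left))
          exact lt_of_lt_of_le hp h1
        have hsub2 : chordSup KB t ⊆ B ∩ Prod.fst '' K := by
          intro p hp
          obtain ⟨z, hz⟩ := nonempty_of_chordLen_pos (lt_of_le_of_lt ht0 hp)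
          exact ⟨hz.2.1, ⟨(p, z), hz.1, rfl⟩⟩
        have hb1 : volume (chordSup KB t) ≤ ENNReal.ofReal (φ t) := by
          rw [hofφ t ht0]; exact measure_mono hsub1
        have hb2 : volume (chordSup KB t) ≤ ENNReal.ofReal (s ^ 2 * φ 0) := by
          rw [ENNReal.ofReal_mul (sq_nonneg s), hofφ 0 le_rfl, hS0]
          exact (measure_mono hsub2).trans hBs
        rcases le_total (s ^ 2 * φ 0) (φ t) with h | h
        · rw [min_eq_left h]; exact hb2
        · rw [min_eq_right h]; exact hb1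
    _ ≤ ENNReal.ofReal (3 * s ^ 2 - 2 * s ^ 3) * ∫⁻ t in Ioi (0:ℝ), ENNReal.ofReal (φ t) := hprof
    _ = ENNReal.ofReal (3 * s ^ 2 - 2 * s ^ 3) * volume K := by
        rw [e1]
        congr 1
        apply setLIntegral_congr_fun measurableSet_Ioi
        intro t ht
        exact hofφ t (le_of_lt ht)

end Vale.Agent.Lib.P243.H19
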