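import Mathlib
import Vale.Agent.Lib.P243.H19.Chart

/-!
# Tetrahedra in a real vector space and the linear chart (P243)

`tet v` is the tetrahedron with vertices `v`, `midOct v` its middle octahedron, and `chartLin v`
the linear chart that carries the corner simplex `T0` to `tet v` (after translation by `v 0`).
-/

open MeasureTheory Set

namespace Vale.Agent.Lib.P243.H19

/-- A continuous linear equivalence between finite-dimensional real normed spaces scales
additive Haar measures by a positive finite constant. -/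
theorem haar_image_scaling {F G : Type*}
    [NormedAddCommGroup F] [NormedSpace ℝ F] [MeasurableSpace F] [BorelSpace F]
    [FiniteDimensional ℝ F]
    [NormedAddCommGroup G] [NormedSpace ℝ G] [MeasurableSpace G] [BorelSpace G]
    [FiniteDimensional ℝ G]
    (μ : Measure F) [μ.IsAddHaarMeasure] (ν : Measure G) [ν.IsAddHaarMeasure]
    (f : F ≃L[ℝ] G) :
    ∃ κ : ENNReal, κ ≠ 0 ∧ κ ≠ ⊤ ∧ ∀ S : Set F, μ S = κ * ν (f '' S) := by
  have : (μ.map f).IsAddHaarMeasure := f.isAddHaarMeasure_map μ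
  have h := Measure.isAddLeftInvariant_eq_smul (μ.map f) ν
  refine ⟨(Measure.addHaarScalarFactor (μ.map f) ν : ENNReal), ?_, ENNReal.coe_ne_top, ?_⟩
  · exact ENNReal.coe_ne_zero.2 (Measure.addHaarScalarFactor_pos_of_isAddHaarMeasure _ _).ne'
  · intro S
    have h1 : (μ.map f) (f '' S) = μ S := by
      have := f.toHomeomorph.toMeasurableEquiv.map_apply (μ := μ) (f '' S)
      have h2 : (f.toHomeomorph.toMeasurableEquiv : F → G) = f := rfl
      rw [h2] at this
      rw [this, Set.preimage_image_eq _ f.injective]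
    rw [← h1]
    conv_lhs => rw [h]
    rfl

/-- An injective linear map between real normed spaces of the same finite dimension, followed by
any translation, scales additive Haar measures by a positive finite constant. -/
theorem haar_scaling_affine {F G : Type*}
    [NormedAddCommGroup F] [NormedSpace ℝ F] [MeasurableSpace F] [BorelSpace F]
    [FiniteDimensional ℝ F]
    [NormedAddCommGroup G] [NormedSpace ℝ G] [MeasurableSpace G] [BorelSpace G]
    [FiniteDimensional ℝ G]
    (μ : Measure F) [μ.IsAddHaarMeasure] (ν : Measure G) [ν.IsAddHaarMeasure]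
    (f : F →ₗ[ℝ] G) (hf : Function.Injective f)
    (hdim : Module.finrank ℝ F = Module.finrank ℝ G) :
    ∃ κ : ENNReal, κ ≠ 0 ∧ κ ≠ ⊤ ∧
      ∀ (a : G) (S : Set F), μ S = κ * ν ((fun p => a + f p) '' S) := by
  obtain ⟨κ, h0, h1, h⟩ := haar_image_scaling μ ν
    (LinearMap.linearEquivOfInjective f hf hdim).toContinuousLinearEquiv
  refine ⟨κ, h0, h1, fun a S => ?_⟩
  rw [h S]
  congr 1
  have h2 : (fun p => a + f p) '' S = (fun x => a + x) '' (f '' S) := by
    rw [image_image]
  rw [h2, image_add_left, measure_preimage_add]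
  congr 1

section Affine

variable {E : Type*} [AddCommGroup E] [Module ℝ E]

/-- The tetrahedron with vertices `v`, as the set of convex combinations. -/
def tet (v : Fin 4 → E) : Set E :=
  {x | ∃ c : Fin 4 → ℝ, (∀ j, 0 ≤ c j) ∧ ∑ j, c j = 1 ∧ ∑ j, c j • v j = x}

/-- The points of the tetrahedron all of whose barycentric coordinates are at most `1/2`. -/
def midOct (v : Fin 4 → E) : Set E :=
  {x | ∃ c : Fin 4 → ℝ, (∀ j, 0 ≤ c j ∧ c j ≤ 1 / 2) ∧ ∑ j, c j = 1 ∧ ∑ j, c j • v j = x}

theorem midOct_subset_tet (v : Fin 4 → E) : midOct v ⊆ tet v := by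
  rintro x ⟨c, hc, h1, h2⟩
  exact ⟨c, fun j => (hc j).1, h1, h2⟩

theorem convexHull_range_eq_tet (v : Fin 4 → E) : convexHull ℝ (range v) = tet v := by
  apply Subset.antisymm
  · apply convexHull_min
    · rintro _ ⟨i, rfl⟩
      refine ⟨Pi.single i 1, fun j => ?_, by simp, by simp [Pi.single_apply]⟩
      by_cases h : j = i
      · subst h; simp
      · simp [h]
    · rintro x ⟨c, hc, hc1, rfl⟩ y ⟨d, hd, hd1, rfl⟩ a b ha hb hab
      refine ⟨fun j => a * c j + b * d j, fun j => ?_, ?_, ?_⟩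
      · exact add_nonneg (mul_nonneg ha (hc j)) (mul_nonneg hb (hd j))
      · rw [Finset.sum_add_distrib, ← Finset.mul_sum, ← Finset.mul_sum, hc1, hd1]; linarith
      · simp only [add_smul, mul_smul, Finset.sum_add_distrib, Finset.smul_sum]
  · rintro x ⟨c, hc, hc1, rfl⟩
    exact mem_convexHull_of_exists_fintype c v hc hc1 (fun i => mem_range_self i) rfl

theorem tet_comp_perm (v : Fin 4 → E) (σ : Equiv.Perm (Fin 4)) : tet (v ∘ σ) = tet v := by
  ext x
  constructor
  · rintro ⟨c, hc, hc1, rfl⟩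
    refine ⟨c ∘ σ.symm, fun j => hc _, ?_, ?_⟩
    · rw [← hc1]; exact Equiv.sum_comp σ.symm c
    · rw [← Equiv.sum_comp σ]; simp
  · rintro ⟨c, hc, hc1, rfl⟩
    refine ⟨c ∘ σ, fun j => hc _, ?_, ?_⟩
    · rw [← hc1]; exact Equiv.sum_comp σ c
    · exact Equiv.sum_comp σ (fun j => c j • v j)

theorem midOct_comp_perm (v : Fin 4 → E) (σ : Equiv.Perm (Fin 4)) :
    midOct (v ∘ σ) = midOct v := by
  ext x
  constructor
  · rintro ⟨c, hc, hc1, rfl⟩
    refine ⟨c ∘ σ.symm, fun j => hc _, ?_, ?_⟩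
    · rw [← hc1]; exact Equiv.sum_comp σ.symm c
    · rw [← Equiv.sum_comp σ]; simp
  · rintro ⟨c, hc, hc1, rfl⟩
    refine ⟨c ∘ σ, fun j => hc _, ?_, ?_⟩
    · rw [← hc1]; exact Equiv.sum_comp σ c
    · exact Equiv.sum_comp σ (fun j => c j • v j)

/-- The linear chart attached to the vertices `v 0, v 1, v 2, v 3`. -/
noncomputable def chartLin (v : Fin 4 → E) : (ℝ × ℝ × ℝ) →ₗ[ℝ] E :=
  (LinearMap.toSpanSingleton ℝ E (v 1 - v 0)).coprod
    ((LinearMap.toSpanSingleton ℝ E (v 2 - v 0)).coprod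
      (LinearMap.toSpanSingleton ℝ E (v 3 - v 0)))

theorem chartLin_apply (v : Fin 4 → E) (p : ℝ × ℝ × ℝ) :
    chartLin v p = p.1 • (v 1 - v 0) + (p.2.1 • (v 2 - v 0) + p.2.2 • (v 3 - v 0)) := by
  simp [chartLin, LinearMap.coprod_apply, LinearMap.toSpanSingleton_apply]

theorem chartLin_injective (v : Fin 4 → E) (hv : AffineIndependent ℝ v) :
    Function.Injective (chartLin v) := by
  rw [injective_iff_map_eq_zero]
  rintro ⟨s, y, z⟩ hp
  rw [chartLin_apply] at hp
  simp only at hp
  have h := (affineIndependent_iff.1 hv) Finset.univ ![-(s + y + z), s, y, z]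
    (by simp [Fin.sum_univ_four]; ring)
    (by
      have h4 : ∑ j : Fin 4, ![-(s + y + z), s, y, z] j • v j
          = -(s + y + z) • v 0 + s • v 1 + y • v 2 + z • v 3 := by
        simp [Fin.sum_univ_four]
      rw [h4, ← hp]; module)
  have h1 := h 1 (Finset.mem_univ _)
  have h2 := h 2 (Finset.mem_univ _)
  have h3 := h 3 (Finset.mem_univ _)
  simp at h1 h2 h3
  simp [h1, h2, h3]

theorem tet_eq_image (v : Fin 4 → E) : tet v = (fun p => v 0 + chartLin v p) '' T0 := by
  ext x
  constructor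
  · rintro ⟨c, hc, hc1, rfl⟩
    rw [Fin.sum_univ_four] at hc1
    refine ⟨(c 1, c 2, c 3), ⟨hc 1, hc 2, hc 3, ?_⟩, ?_⟩
    · simp only; linarith [hc 0]
    · simp only [chartLin_apply, Fin.sum_univ_four]
      have h0 : c 0 = 1 - c 1 - c 2 - c 3 := by linarith
      rw [h0]; module
  · rintro ⟨⟨s, y, z⟩, ⟨hs, hy, hz, hsum⟩, rfl⟩
    simp only at hs hy hz hsum
    refine ⟨![1 - s - y - z, s, y, z], ?_, ?_, ?_⟩
    · intro j
      fin_cases j <;> simp <;> linarith
    · simp [Fin.sum_univ_four]; ring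
    · have h4 : ∑ j : Fin 4, ![1 - s - y - z, s, y, z] j • v j
          = (1 - s - y - z) • v 0 + s • v 1 + y • v 2 + z • v 3 := by
        simp [Fin.sum_univ_four]
      rw [h4]
      beta_reduce
      rw [chartLin_apply]
      module

theorem midOct_eq_image (v : Fin 4 → E) : midOct v = (fun p => v 0 + chartLin v p) '' O0 := by
  ext x
  constructor
  · rintro ⟨c, hc, hc1, rfl⟩
    rw [Fin.sum_univ_four] at hc1
    refine ⟨(c 1, c 2, c 3), ⟨⟨(hc 1).1, (hc 2).1, (hc 3).1, ?_⟩, (hc 1).2, (hc 2).2, (hc 3).2, ?_⟩,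
      ?_⟩
    · simp only; linarith [(hc 0).1]
    · simp only; linarith [(hc 0).2]
    · simp only [chartLin_apply, Fin.sum_univ_four]
      have h0 : c 0 = 1 - c 1 - c 2 - c 3 := by linarith
      rw [h0]; module
  · rintro ⟨⟨s, y, z⟩, ⟨⟨hs, hy, hz, hsum⟩, hs', hy', hz', hsum'⟩, rfl⟩
    simp only at hs hy hz hsum hs' hy' hz' hsum'
    refine ⟨![1 - s - y - z, s, y, z], ?_, ?_, ?_⟩
    · intro j
      fin_cases j <;> simp <;> constructor <;> linarith
    · simp [Fin.sum_univ_four]; ring
    · have h4 : ∑ j : Fin 4, ![1 - s - y - z, s, y, z] j • v j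
          = (1 - s - y - z) • v 0 + s • v 1 + y • v 2 + z • v 3 := by
        simp [Fin.sum_univ_four]
      rw [h4]
      beta_reduce
      rw [chartLin_apply]
      module

end Affine

end Vale.Agent.Lib.P243.H19
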