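import Mathlib
import Vale.Agent.Lib.P243.H19.Geometry

/-!
# The cylinder bound for edge-parallel directions, in orthonormal plane coordinates (P243)

Ambient space: `Fin 3 → ℝ` with the dot product and Lebesgue measure. A cylinder whose axis is
orthogonal to an orthonormal pair `e, f` is given by its base `B : Set (ℝ × ℝ)` in the orthonormal
coordinates `x ↦ (e ⬝ᵥ x, f ⬝ᵥ x)` of the plane spanned by `e` and `f`; it is the preimage of `B`
under `frameProj e f`. If the axis is parallel to an edge of the tetrahedron `tet v`, the cylinder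
meets the tetrahedron and its middle octahedron in total volume at most `3 vol(T) |B| / |π T|`.
-/

open MeasureTheory Set
open scoped Matrix

namespace Vale.Agent.Lib.P243.H19

/-- Coordinates of the orthogonal projection of `x` onto the plane spanned by `e` and `f`. -/
def frameProj (e f : Fin 3 → ℝ) : (Fin 3 → ℝ) →ₗ[ℝ] ℝ × ℝ where
  toFun x := (e ⬝ᵥ x, f ⬝ᵥ x)
  map_add' x y := by simp [dotProduct_add]
  map_smul' c x := by simp [dotProduct_smul]

theorem frameProj_apply (e f x : Fin 3 → ℝ) : frameProj e f x = (e ⬝ᵥ x, f ⬝ᵥ x) := rfl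

/-- A vector orthogonal to an orthonormal pair `e, f` is a multiple of any nonzero vector `w`
orthogonal to both. -/
theorem eq_smul_of_dot_eq_zero (w e f y : Fin 3 → ℝ) (hw : w ≠ 0)
    (hee : e ⬝ᵥ e = 1) (hff : f ⬝ᵥ f = 1) (hef : e ⬝ᵥ f = 0)
    (hew : e ⬝ᵥ w = 0) (hfw : f ⬝ᵥ w = 0)
    (hey : e ⬝ᵥ y = 0) (hfy : f ⬝ᵥ y = 0) : ∃ c : ℝ, y = c • w := by
  have hww : w ⬝ᵥ w ≠ 0 := by rwa [Ne, dotProduct_self_eq_zero]
  have hwe : w ⬝ᵥ e = 0 := by rw [dotProduct_comm]; exact hew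
  have hwf : w ⬝ᵥ f = 0 := by rw [dotProduct_comm]; exact hfw
  have hfe : f ⬝ᵥ e = 0 := by rw [dotProduct_comm]; exact hef
  let M : Matrix (Fin 3) (Fin 3) ℝ := Matrix.of ![w, e, f]
  have hMM : M * M.transpose = Matrix.diagonal ![w ⬝ᵥ w, 1, 1] := by
    have h1 : M * M.transpose = Matrix.of fun i j => (![w, e, f] i) ⬝ᵥ (![w, e, f] j) := by
      ext i j
      simp [M, Matrix.mul_apply, dotProduct]
    rw [h1]
    ext i j
    fin_cases i <;> fin_cases j <;> simp [hee, hff, hef, hew, hfw, hwe, hwf, hfe]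
  have hdet : M.det ≠ 0 := by
    intro h0
    have h2 := congrArg Matrix.det hMM
    rw [Matrix.det_mul, Matrix.det_transpose, h0, Matrix.det_diagonal] at h2
    simp [Fin.prod_univ_three] at h2
    exact hww h2.symm
  have hy' : M *ᵥ (y - ((w ⬝ᵥ y) / (w ⬝ᵥ w)) • w) = 0 := by
    ext i
    fin_cases i
    · show w ⬝ᵥ (y - ((w ⬝ᵥ y) / (w ⬝ᵥ w)) • w) = 0
      rw [dotProduct_sub, dotProduct_smul, smul_eq_mul, div_mul_cancel₀ _ hww, sub_self]
    · show e ⬝ᵥ (y - ((w ⬝ᵥ y) / (w ⬝ᵥ w)) • w) = 0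
      rw [dotProduct_sub, dotProduct_smul, hey, hew, smul_zero, sub_zero]
    · show f ⬝ᵥ (y - ((w ⬝ᵥ y) / (w ⬝ᵥ w)) • w) = 0
      rw [dotProduct_sub, dotProduct_smul, hfy, hfw, smul_zero, sub_zero]
  exact ⟨(w ⬝ᵥ y) / (w ⬝ᵥ w), sub_eq_zero.1 (Matrix.eq_zero_of_mulVec_eq_zero hdet hy')⟩

/-- The chart scales three-dimensional volume by a positive finite constant. -/
theorem chart_volume (v : Fin 4 → Fin 3 → ℝ) (hv : AffineIndependent ℝ v) :
    ∃ κ : ENNReal, κ ≠ 0 ∧ κ ≠ ⊤ ∧ ∀ S : Set (ℝ × ℝ × ℝ),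
      volume S = κ * volume ((fun p => v 0 + chartLin v p) '' S) := by
  have := isAddHaarMeasure_volume_prod3
  obtain ⟨κ, h0, h1, h⟩ := haar_scaling_affine (volume : Measure (ℝ × ℝ × ℝ))
    (volume : Measure (Fin 3 → ℝ)) (chartLin v) (chartLin_injective v hv) (by simp)
  exact ⟨κ, h0, h1, fun S => h (v 0) S⟩

theorem volume_tet_ne_zero (v : Fin 4 → Fin 3 → ℝ) (hv : AffineIndependent ℝ v) :
    volume (tet v) ≠ 0 := by
  obtain ⟨κ, h0, h1, h⟩ := chart_volume v hv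
  have hT := h T0
  rw [← tet_eq_image] at hT
  intro hz
  rw [hz, mul_zero] at hT
  exact volume_T0_ne_zero hT

theorem volume_tet_ne_top (v : Fin 4 → Fin 3 → ℝ) (hv : AffineIndependent ℝ v) :
    volume (tet v) ≠ ⊤ := by
  obtain ⟨κ, h0, h1, h⟩ := chart_volume v hv
  have hT := h T0
  rw [← tet_eq_image] at hT
  intro hz
  rw [hz, ENNReal.mul_top h0] at hT
  exact volume_T0_ne_top hT

theorem volume_tet_le_two_mul (v : Fin 4 → Fin 3 → ℝ)
    (hv : AffineIndependent ℝ v) : volume (tet v) ≤ 2 * volume (midOct v) := by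
  obtain ⟨κ, h0, h1, h⟩ := chart_volume v hv
  have hT := h T0
  have hO := h O0
  rw [← tet_eq_image] at hT
  rw [← midOct_eq_image] at hO
  apply (ENNReal.mul_le_mul_iff_right h0 h1).1
  calc κ * volume (tet v) = volume T0 := hT.symm
    _ ≤ 2 * volume O0 := volume_T0_le_two_mul
    _ = κ * (2 * volume (midOct v)) := by rw [hO]; ring

/-- The cylinder bound for an axis parallel to the edge `v 0 v 1`: the part of the cylinder
over `B` inside the tetrahedron plus the part inside the middle octahedron has volume at most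
`3 vol(T) |B| / |π T|`. -/
theorem cylinder_bound_labeled (v : Fin 4 → Fin 3 → ℝ)
    (hv : AffineIndependent ℝ v) (e f : Fin 3 → ℝ)
    (hee : e ⬝ᵥ e = 1) (hff : f ⬝ᵥ f = 1) (hef : e ⬝ᵥ f = 0)
    (hew : e ⬝ᵥ (v 1 - v 0) = 0) (hfw : f ⬝ᵥ (v 1 - v 0) = 0) (B : Set (ℝ × ℝ)) :
    volume (tet v ∩ frameProj e f ⁻¹' B) + volume (midOct v ∩ frameProj e f ⁻¹' B)
      ≤ 3 * volume (tet v) * (volume B / volume (frameProj e f '' tet v)) := by
  set π := frameProj e f with hπ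
  have hw : v 1 - v 0 ≠ 0 := by
    intro h0
    have h1 : chartLin v (1, 0, 0) = chartLin v (0, 0, 0) := by
      rw [chartLin_apply, chartLin_apply]
      simp [h0]
    have h2 := chartLin_injective v hv h1
    simp at h2
  have hπw : π (v 1 - v 0) = 0 := by
    rw [hπ, frameProj_apply, hew, hfw]
    rfl
  let βlin : (ℝ × ℝ) →ₗ[ℝ] ℝ × ℝ := π ∘ₗ chartLin v ∘ₗ LinearMap.inr ℝ ℝ (ℝ × ℝ)
  have hβ : ∀ q, βlin q = π (chartLin v (0, q)) := fun q => rfl
  have hkey : ∀ (s : ℝ) (q : ℝ × ℝ), π (v 0 + chartLin v (s, q)) = π (v 0) + βlin q := by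
    intro s q
    have h1 : chartLin v (s, q) = s • (v 1 - v 0) + chartLin v (0, q) := by
      simp [chartLin_apply]
    rw [map_add, h1, map_add, map_smul, hπw, smul_zero, zero_add, hβ]
  have hβinj : Function.Injective βlin := by
    rw [injective_iff_map_eq_zero]
    intro q hq
    rw [hβ, hπ, frameProj_apply, Prod.mk_eq_zero] at hq
    obtain ⟨c, hc⟩ := eq_smul_of_dot_eq_zero (v 1 - v 0) e f (chartLin v (0, q)) hw hee hff hef
      hew hfw hq.1 hq.2
    have h1 : chartLin v (c, 0) = chartLin v (0, q) := by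
      rw [hc, chartLin_apply]
      simp
    have h2 := chartLin_injective v hv h1
    exact (Prod.ext_iff.1 h2).2.symm
  have := isAddHaarMeasure_volume_prod2
  obtain ⟨κ, hκ0, hκ1, hκ⟩ := haar_scaling_affine (volume : Measure (ℝ × ℝ))
    (volume : Measure (ℝ × ℝ)) βlin hβinj rfl
  obtain ⟨κ', hκ'0, hκ'1, hκ'⟩ := chart_volume v hv
  set B0 : Set (ℝ × ℝ) := {q | π (v 0) + βlin q ∈ B} with hB0
  have H1 : tet v ∩ π ⁻¹' B ⊆ (fun p => v 0 + chartLin v p) '' ((univ ×ˢ B0) ∩ T0) := by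
    rintro x ⟨hx, hxB⟩
    rw [tet_eq_image] at hx
    obtain ⟨⟨s, q⟩, hp, rfl⟩ := hx
    refine ⟨(s, q), ⟨⟨mem_univ _, ?_⟩, hp⟩, rfl⟩
    show π (v 0) + βlin q ∈ B
    rw [← hkey s q]
    exact hxB
  have H2 : midOct v ∩ π ⁻¹' B ⊆ (fun p => v 0 + chartLin v p) '' ((univ ×ˢ B0) ∩ O0) := by
    rintro x ⟨hx, hxB⟩
    rw [midOct_eq_image] at hx
    obtain ⟨⟨s, q⟩, hp, rfl⟩ := hx
    refine ⟨(s, q), ⟨⟨mem_univ _, ?_⟩, hp⟩, rfl⟩
    show π (v 0) + βlin q ∈ B
    rw [← hkey s q]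
    exact hxB
  have H3 : (fun q => π (v 0) + βlin q) '' B0 ⊆ B := by
    rintro _ ⟨q, hq, rfl⟩
    exact hq
  have H4 : π '' tet v = (fun q => π (v 0) + βlin q) '' Tri := by
    rw [tet_eq_image, image_image]
    ext b
    constructor
    · rintro ⟨⟨s, q⟩, hp, rfl⟩
      exact ⟨q, ⟨hp.2.1, hp.2.2.1, by linarith [hp.1, hp.2.2.2]⟩, (hkey s q).symm⟩
    · rintro ⟨q, hq, rfl⟩
      exact ⟨(0, q), ⟨le_rfl, hq.1, hq.2.1, by simpa using hq.2.2⟩, hkey 0 q⟩
  set P := volume (π '' tet v) with hP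
  have hTri : volume Tri = κ * P := by
    rw [hP, H4]
    exact hκ _ _
  have hP0 : P ≠ 0 := by
    intro h
    rw [h, mul_zero] at hTri
    exact volume_Tri_ne_zero hTri
  have hPtop : P ≠ ⊤ := by
    intro h
    rw [h, ENNReal.mul_top hκ0] at hTri
    exact volume_Tri_ne_top hTri
  have hT : volume T0 = κ' * volume (tet v) := by
    rw [tet_eq_image]
    exact hκ' _
  have hL : κ' * (volume (tet v ∩ π ⁻¹' B) + volume (midOct v ∩ π ⁻¹' B)) ≤ κ * volume B := by
    calc κ' * (volume (tet v ∩ π ⁻¹' B) + volume (midOct v ∩ π ⁻¹' B))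
        ≤ κ' * (volume ((fun p => v 0 + chartLin v p) '' ((univ ×ˢ B0) ∩ T0))
          + volume ((fun p => v 0 + chartLin v p) '' ((univ ×ˢ B0) ∩ O0))) := by
          gcongr
      _ = volume ((univ ×ˢ B0) ∩ T0) + volume ((univ ×ˢ B0) ∩ O0) := by
          rw [mul_add, ← hκ', ← hκ']
      _ ≤ volume B0 := chart_cylinder_bound B0
      _ = κ * volume ((fun q => π (v 0) + βlin q) '' B0) := hκ _ _
      _ ≤ κ * volume B := by gcongr
  rw [← mul_div_assoc, ENNReal.le_div_iff_mul_le (Or.inl hP0) (Or.inl hPtop)]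
  apply (ENNReal.mul_le_mul_iff_right (mul_ne_zero hκ'0 hκ0) (ENNReal.mul_ne_top hκ'1 hκ1)).1
  calc κ' * κ * ((volume (tet v ∩ π ⁻¹' B) + volume (midOct v ∩ π ⁻¹' B)) * P)
      = (κ' * (volume (tet v ∩ π ⁻¹' B) + volume (midOct v ∩ π ⁻¹' B))) * (κ * P) := by ring
    _ ≤ (κ * volume B) * (3 * volume T0) := mul_le_mul' hL (hTri ▸ volume_Tri_le)
    _ = (κ * volume B) * (3 * (κ' * volume (tet v))) := by rw [hT]
    _ = κ' * κ * (3 * volume (tet v) * volume B) := by ring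

theorem exists_perm_fin_four (a b : Fin 4) (hab : a ≠ b) :
    ∃ σ : Equiv.Perm (Fin 4), σ 0 = a ∧ σ 1 = b := by
  refine ⟨(Equiv.swap 0 a).trans (Equiv.swap (Equiv.swap 0 a 1) b), ?_, ?_⟩
  · have h1 : Equiv.swap 0 a 1 ≠ a := by
      intro h
      have h2 : Equiv.swap 0 a 1 = Equiv.swap 0 a 0 := by rw [h, Equiv.swap_apply_left]
      exact absurd ((Equiv.swap 0 a).injective h2) (by decide)
    rw [Equiv.trans_apply, Equiv.swap_apply_left, Equiv.swap_apply_of_ne_of_ne h1.symm hab]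
  · rw [Equiv.trans_apply, Equiv.swap_apply_left]

/-- The cylinder bound for an axis parallel to any edge `v a v b`. -/
theorem cylinder_bound (v : Fin 4 → Fin 3 → ℝ)
    (hv : AffineIndependent ℝ v) (e f : Fin 3 → ℝ)
    (hee : e ⬝ᵥ e = 1) (hff : f ⬝ᵥ f = 1) (hef : e ⬝ᵥ f = 0) (a b : Fin 4) (hab : a ≠ b)
    (hew : e ⬝ᵥ (v a - v b) = 0) (hfw : f ⬝ᵥ (v a - v b) = 0) (B : Set (ℝ × ℝ)) :
    volume (tet v ∩ frameProj e f ⁻¹' B) + volume (midOct v ∩ frameProj e f ⁻¹' B)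
      ≤ 3 * volume (tet v) * (volume B / volume (frameProj e f '' tet v)) := by
  obtain ⟨σ, h0, h1⟩ := exists_perm_fin_four b a hab.symm
  have hv' : AffineIndependent ℝ (v ∘ σ) := hv.comp_embedding σ.toEmbedding
  have h := cylinder_bound_labeled (v ∘ σ) hv' e f hee hff hef (by simpa [h0, h1] using hew)
    (by simpa [h0, h1] using hfw) B
  rwa [tet_comp_perm, midOct_comp_perm] at h

/-- The main bound in terms of `tet v` and `frameProj`. -/
theorem edge_parallel_bound (v : Fin 4 → Fin 3 → ℝ) (hv : AffineIndependent ℝ v)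
    (m : ℕ) (e f : Fin m → Fin 3 → ℝ) (B : Fin m → Set (ℝ × ℝ))
    (hframe : ∀ i, e i ⬝ᵥ e i = 1 ∧ f i ⬝ᵥ f i = 1 ∧ e i ⬝ᵥ f i = 0 ∧
      ∃ a b : Fin 4, a ≠ b ∧ e i ⬝ᵥ (v a - v b) = 0 ∧ f i ⬝ᵥ (v a - v b) = 0)
    (hcover : tet v ⊆ ⋃ i, frameProj (e i) (f i) ⁻¹' B i) :
    (1 / 2 : ENNReal) ≤ ∑ i, volume (B i) / volume (frameProj (e i) (f i) '' tet v) := by
  have hV0 := volume_tet_ne_zero v hv
  have hVtop := volume_tet_ne_top v hv
  have hT : tet v ⊆ ⋃ i, tet v ∩ frameProj (e i) (f i) ⁻¹' (B i) := by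
    intro x hx
    obtain ⟨i, hi⟩ := mem_iUnion.1 (hcover hx)
    exact mem_iUnion.2 ⟨i, hx, hi⟩
  have hO : midOct v ⊆ ⋃ i, midOct v ∩ frameProj (e i) (f i) ⁻¹' (B i) := by
    intro x hx
    obtain ⟨i, hi⟩ := mem_iUnion.1 (hcover (midOct_subset_tet v hx))
    exact mem_iUnion.2 ⟨i, hx, hi⟩
  have hsum : volume (tet v) + volume (midOct v)
      ≤ ∑ i, (volume (tet v ∩ frameProj (e i) (f i) ⁻¹' (B i))
        + volume (midOct v ∩ frameProj (e i) (f i) ⁻¹' (B i))) := by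
    rw [Finset.sum_add_distrib]
    exact add_le_add ((measure_mono hT).trans (measure_iUnion_fintype_le _ _))
      ((measure_mono hO).trans (measure_iUnion_fintype_le _ _))
  have hper : ∀ i, volume (tet v ∩ frameProj (e i) (f i) ⁻¹' (B i))
        + volume (midOct v ∩ frameProj (e i) (f i) ⁻¹' (B i))
      ≤ 3 * volume (tet v) * (volume (B i) / volume (frameProj (e i) (f i) '' tet v)) := by
    intro i
    obtain ⟨hee, hff, hef, a, b, hab, hew, hfw⟩ := hframe i
    exact cylinder_bound v hv (e i) (f i) hee hff hef a b hab hew hfw (B i)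
  have hhalf : volume (tet v) / 2 ≤ volume (midOct v) :=
    ENNReal.div_le_of_le_mul' (volume_tet_le_two_mul v hv)
  have hmass : 3 * volume (tet v) * (1 / 2) ≤ volume (tet v) + volume (midOct v) := by
    calc 3 * volume (tet v) * (1 / 2)
        = volume (tet v) / 2 + volume (tet v) / 2 + volume (tet v) / 2 := by
          rw [mul_assoc, mul_one_div]; ring
      _ = volume (tet v) + volume (tet v) / 2 := by rw [ENNReal.add_halves]
      _ ≤ volume (tet v) + volume (midOct v) := by gcongr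
  have h3 : 3 * volume (tet v) * (1 / 2) ≤ 3 * volume (tet v)
      * ∑ i, volume (B i) / volume (frameProj (e i) (f i) '' tet v) := by
    calc 3 * volume (tet v) * (1 / 2) ≤ volume (tet v) + volume (midOct v) := hmass
      _ ≤ ∑ i, (volume (tet v ∩ frameProj (e i) (f i) ⁻¹' (B i))
          + volume (midOct v ∩ frameProj (e i) (f i) ⁻¹' (B i))) := hsum
      _ ≤ ∑ i, 3 * volume (tet v)
          * (volume (B i) / volume (frameProj (e i) (f i) '' tet v)) :=
          Finset.sum_le_sum (fun i _ => hper i)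
      _ = 3 * volume (tet v)
          * ∑ i, volume (B i) / volume (frameProj (e i) (f i) '' tet v) := by
          rw [Finset.mul_sum]
  exact (ENNReal.mul_le_mul_iff_right (mul_ne_zero (by norm_num) hV0)
    (ENNReal.mul_ne_top (by norm_num) hVtop)).1 h3

end Vale.Agent.Lib.P243.H19
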