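import Mathlib
import Vale.Agent.Lib.P243.H19.Frame
import Vale.Agent.Lib.P243.H19.Conc

/-!
# Cylinder covers of a convex body: the master inequality and its consequences (P243)

Ambient space `Fin 3 → ℝ`. A cylinder is given by an orthonormal pair `e, f` (spanning the plane
orthogonal to its axis) and a base `B : Set (ℝ × ℝ)` in the coordinates `x ↦ (e ⬝ᵥ x, f ⬝ᵥ x)`.

* `cyl_conc`: the concentration bound `conc_bound` transported to `Fin 3 → ℝ`.
* `master`: for a cover, the values `3 s ^ 2 - 2 s ^ 3` of the relative base areas `s ^ 2`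
  sum to at least one.
* `cover_real`, `bound_half`, `bound_general`, `bound_sharp`: the numerical consequences.
-/

open MeasureTheory Set
open scoped Matrix

namespace Vale.Agent.Lib.P243.H19

theorem isAddHaarMeasure_volume_prod21 :
    (volume : Measure ((ℝ × ℝ) × ℝ)).IsAddHaarMeasure := by
  have := isAddHaarMeasure_volume_prod2
  rw [Measure.volume_eq_prod]; infer_instance

/-- Orthonormal coordinates adapted to the frame `e, f`: the third coordinate is taken along the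
cross product of `e` and `f`. -/
def frameMap (e f : Fin 3 → ℝ) : (Fin 3 → ℝ) →ₗ[ℝ] (ℝ × ℝ) × ℝ where
  toFun x := ((e ⬝ᵥ x, f ⬝ᵥ x), crossProduct e f ⬝ᵥ x)
  map_add' x y := by simp [dotProduct_add]
  map_smul' c x := by simp [dotProduct_smul]

theorem frameMap_apply (e f x : Fin 3 → ℝ) :
    frameMap e f x = ((e ⬝ᵥ x, f ⬝ᵥ x), crossProduct e f ⬝ᵥ x) := rfl

theorem frameMap_injective (e f : Fin 3 → ℝ) (hee : e ⬝ᵥ e = 1) (hff : f ⬝ᵥ f = 1)
    (hef : e ⬝ᵥ f = 0) : Function.Injective (frameMap e f) := by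
  rw [injective_iff_map_eq_zero]
  intro x hx
  rw [frameMap_apply, Prod.mk_eq_zero, Prod.mk_eq_zero] at hx
  obtain ⟨⟨h1, h2⟩, h3⟩ := hx
  have hnn : crossProduct e f ⬝ᵥ crossProduct e f = 1 := by
    rw [cross_dot_cross, hee, hff, hef, dotProduct_comm f e, hef]; ring
  have hn0 : crossProduct e f ≠ 0 := by
    intro h; rw [h] at hnn; simp at hnn
  obtain ⟨c, hc⟩ := eq_smul_of_dot_eq_zero (crossProduct e f) e f x hn0 hee hff hef
    (dot_self_cross e f) (dot_cross_self e f) h1 h2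
  rw [hc, dotProduct_smul, hnn, smul_eq_mul, mul_one] at h3
  rw [hc, h3, zero_smul]

theorem frame_scaling (e f : Fin 3 → ℝ) (hee : e ⬝ᵥ e = 1) (hff : f ⬝ᵥ f = 1)
    (hef : e ⬝ᵥ f = 0) :
    ∃ κ : ENNReal, κ ≠ 0 ∧ κ ≠ ⊤ ∧
      ∀ S : Set (Fin 3 → ℝ), volume S = κ * volume (frameMap e f '' S) := by
  have := isAddHaarMeasure_volume_prod21
  obtain ⟨κ, h0, h1, h⟩ := haar_scaling_affine (volume : Measure (Fin 3 → ℝ))
    (volume : Measure ((ℝ × ℝ) × ℝ)) (frameMap e f) (frameMap_injective e f hee hff hef)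
    (by simp)
  refine ⟨κ, h0, h1, fun S => ?_⟩
  have h2 := h 0 S
  simpa using h2

/-- The concentration bound for a cylinder in `Fin 3 → ℝ` given in frame coordinates. -/
theorem cyl_conc (K : Set (Fin 3 → ℝ)) (hKc : IsCompact K) (hK : Convex ℝ K)
    (e f : Fin 3 → ℝ) (hee : e ⬝ᵥ e = 1) (hff : f ⬝ᵥ f = 1) (hef : e ⬝ᵥ f = 0)
    (B : Set (ℝ × ℝ)) (s : ℝ) (hs0 : 0 ≤ s) (hs1 : s ≤ 1)
    (hBs : volume (B ∩ frameProj e f '' K)
      ≤ ENNReal.ofReal (s ^ 2) * volume (frameProj e f '' K)) :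
    volume (K ∩ frameProj e f ⁻¹' B) ≤ ENNReal.ofReal (3 * s ^ 2 - 2 * s ^ 3) * volume K := by
  obtain ⟨κ, hκ0, hκ1, hκ⟩ := frame_scaling e f hee hff hef
  have hΦc : Continuous (frameMap e f) := LinearMap.continuous_of_finiteDimensional _
  have hK'c : IsCompact (frameMap e f '' K) := hKc.image hΦc
  have hK'conv : Convex ℝ (frameMap e f '' K) := hK.linear_image (frameMap e f)
  have hfst : Prod.fst '' (frameMap e f '' K) = frameProj e f '' K := by
    rw [image_image]; rfl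
  have hMm : MeasurableSet (toMeasurable volume (B ∩ frameProj e f '' K)) :=
    measurableSet_toMeasurable _ _
  have hMsub : B ∩ frameProj e f '' K ⊆ toMeasurable volume (B ∩ frameProj e f '' K) :=
    subset_toMeasurable _ _
  have hMvol : volume (toMeasurable volume (B ∩ frameProj e f '' K))
      = volume (B ∩ frameProj e f '' K) := measure_toMeasurable _
  have hsub : frameMap e f '' (K ∩ frameProj e f ⁻¹' B)
      ⊆ frameMap e f '' K ∩ toMeasurable volume (B ∩ frameProj e f '' K) ×ˢ (univ : Set ℝ) := by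
    rintro _ ⟨x, ⟨hxK, hxB⟩, rfl⟩
    refine ⟨⟨x, hxK, rfl⟩, ?_, mem_univ _⟩
    exact hMsub ⟨hxB, ⟨x, hxK, rfl⟩⟩
  have hconc := conc_bound (frameMap e f '' K) hK'c hK'conv
    (toMeasurable volume (B ∩ frameProj e f '' K)) hMm s hs0 hs1 (by
      rw [hfst]
      exact (measure_mono inter_subset_left).trans (hMvol.le.trans hBs))
  calc volume (K ∩ frameProj e f ⁻¹' B)
      = κ * volume (frameMap e f '' (K ∩ frameProj e f ⁻¹' B)) := hκ _
    _ ≤ κ * volume (frameMap e f '' K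
          ∩ toMeasurable volume (B ∩ frameProj e f '' K) ×ˢ (univ : Set ℝ)) := by gcongr
    _ ≤ κ * (ENNReal.ofReal (3 * s ^ 2 - 2 * s ^ 3) * volume (frameMap e f '' K)) := by gcongr
    _ = ENNReal.ofReal (3 * s ^ 2 - 2 * s ^ 3) * (κ * volume (frameMap e f '' K)) := by ring
    _ = ENNReal.ofReal (3 * s ^ 2 - 2 * s ^ 3) * volume K := by rw [← hκ]

theorem shadow_ne_zero (K : Set (Fin 3 → ℝ)) (e f : Fin 3 → ℝ) (hee : e ⬝ᵥ e = 1)
    (hff : f ⬝ᵥ f = 1) (hef : e ⬝ᵥ f = 0) (hK0 : volume K ≠ 0) :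
    volume (frameProj e f '' K) ≠ 0 := by
  obtain ⟨κ, hκ0, hκ1, hκ⟩ := frame_scaling e f hee hff hef
  intro h0
  apply hK0
  rw [hκ K]
  have hsub : frameMap e f '' K ⊆ (frameProj e f '' K) ×ˢ (univ : Set ℝ) := by
    rintro _ ⟨x, hx, rfl⟩
    exact ⟨⟨x, hx, rfl⟩, mem_univ _⟩
  have h1 : volume ((frameProj e f '' K) ×ˢ (univ : Set ℝ)) = 0 := by
    have e1 : (volume : Measure ((ℝ × ℝ) × ℝ))
        = (volume : Measure (ℝ × ℝ)).prod (volume : Measure ℝ) := rfl
    rw [e1, Measure.prod_prod, h0, zero_mul]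
  rw [measure_mono_null hsub h1, mul_zero]

theorem shadow_ne_top (K : Set (Fin 3 → ℝ)) (hKc : IsCompact K) (e f : Fin 3 → ℝ) :
    volume (frameProj e f '' K) ≠ ⊤ :=
  (hKc.image (LinearMap.continuous_of_finiteDimensional _)).isBounded.measure_lt_top.ne

/-- The master inequality: for a cover of a convex body by cylinders, the concentration function
`3 s ^ 2 - 2 s ^ 3` of the relative base areas `s ^ 2` sums to at least one. -/
theorem master (K : Set (Fin 3 → ℝ)) (hKc : IsCompact K) (hK : Convex ℝ K)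
    (hK0 : volume K ≠ 0) (k : ℕ) (e f : Fin k → Fin 3 → ℝ)
    (hee : ∀ j, e j ⬝ᵥ e j = 1) (hff : ∀ j, f j ⬝ᵥ f j = 1) (hef : ∀ j, e j ⬝ᵥ f j = 0)
    (B : Fin k → Set (ℝ × ℝ)) (hcover : K ⊆ ⋃ j, frameProj (e j) (f j) ⁻¹' B j)
    (s : Fin k → ℝ) (hs0 : ∀ j, 0 ≤ s j) (hs1 : ∀ j, s j ≤ 1)
    (hBs : ∀ j, volume (B j ∩ frameProj (e j) (f j) '' K)
      ≤ ENNReal.ofReal (s j ^ 2) * volume (frameProj (e j) (f j) '' K)) :
    1 ≤ ∑ j, (3 * s j ^ 2 - 2 * s j ^ 3) := by
  have hKtop : volume K ≠ ⊤ := hKc.measure_lt_top.ne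
  have hsub : K ⊆ ⋃ j, K ∩ frameProj (e j) (f j) ⁻¹' B j := by
    intro x hx
    obtain ⟨j, hj⟩ := mem_iUnion.1 (hcover hx)
    exact mem_iUnion.2 ⟨j, hx, hj⟩
  have h1 : volume K ≤ ∑ j, ENNReal.ofReal (3 * s j ^ 2 - 2 * s j ^ 3) * volume K := by
    calc volume K ≤ volume (⋃ j, K ∩ frameProj (e j) (f j) ⁻¹' B j) := measure_mono hsub
      _ ≤ ∑ j, volume (K ∩ frameProj (e j) (f j) ⁻¹' B j) := measure_iUnion_fintype_le _ _
      _ ≤ ∑ j, ENNReal.ofReal (3 * s j ^ 2 - 2 * s j ^ 3) * volume K :=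
          Finset.sum_le_sum fun j _ => cyl_conc K hKc hK (e j) (f j) (hee j) (hff j) (hef j)
            (B j) (s j) (hs0 j) (hs1 j) (hBs j)
  have hnn : ∀ j, 0 ≤ 3 * s j ^ 2 - 2 * s j ^ 3 := fun j => by
    nlinarith [hs0 j, hs1 j, sq_nonneg (s j)]
  rw [← Finset.sum_mul, ← ENNReal.ofReal_sum_of_nonneg (fun j _ => hnn j)] at h1
  have h2 := ENNReal.toReal_mono (ENNReal.mul_ne_top ENNReal.ofReal_ne_top hKtop) h1
  rw [ENNReal.toReal_mul, ENNReal.toReal_ofReal (Finset.sum_nonneg fun j _ => hnn j)] at h2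
  have hv : 0 < (volume K).toReal := ENNReal.toReal_pos hK0 hKtop
  by_contra hcon
  have hcon := not_le.mp hcon
  nlinarith

/-- Reduction of a cylinder cover with directions indexed by `d` to real numbers `b j`
(the relative base area per direction, capped at one). -/
theorem cover_real (K : Set (Fin 3 → ℝ)) (hKc : IsCompact K) (hK : Convex ℝ K)
    (hKi : (interior K).Nonempty) (k m : ℕ) (e f : Fin k → Fin 3 → ℝ)
    (hee : ∀ j, e j ⬝ᵥ e j = 1) (hff : ∀ j, f j ⬝ᵥ f j = 1) (hef : ∀ j, e j ⬝ᵥ f j = 0)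
    (d : Fin m → Fin k) (B : Fin m → Set (ℝ × ℝ))
    (hcover : K ⊆ ⋃ i, frameProj (e (d i)) (f (d i)) ⁻¹' B i) :
    ∃ b : Fin k → ℝ, (∀ j, 0 ≤ b j) ∧ (∀ j, b j ≤ 1) ∧
      1 ≤ ∑ j, (3 * b j - 2 * b j * √(b j)) ∧
      ENNReal.ofReal (∑ j, b j)
        ≤ ∑ i, volume (B i) / volume (frameProj (e (d i)) (f (d i)) '' K) := by
  have hK0 : volume K ≠ 0 :=
    (lt_of_lt_of_le (isOpen_interior.measure_pos volume hKi) (measure_mono interior_subset)).ne'
  have hD0 : ∀ j, volume (frameProj (e j) (f j) '' K) ≠ 0 :=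
    fun j => shadow_ne_zero K (e j) (f j) (hee j) (hff j) (hef j) hK0
  have hDtop : ∀ j, volume (frameProj (e j) (f j) '' K) ≠ ⊤ :=
    fun j => shadow_ne_top K hKc (e j) (f j)
  let B' : Fin k → Set (ℝ × ℝ) := fun j => ⋃ i, if d i = j then B i else ∅
  have hcover' : K ⊆ ⋃ j, frameProj (e j) (f j) ⁻¹' B' j := by
    intro x hx
    obtain ⟨i, hi⟩ := mem_iUnion.1 (hcover hx)
    refine mem_iUnion.2 ⟨d i, ?_⟩
    show frameProj (e (d i)) (f (d i)) x ∈ ⋃ i', if d i' = d i then B i' else ∅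
    refine mem_iUnion.2 ⟨i, ?_⟩
    rw [if_pos rfl]
    exact hi
  let β : Fin k → ENNReal := fun j => volume (B' j) / volume (frameProj (e j) (f j) '' K)
  let b : Fin k → ℝ := fun j => (min (β j) 1).toReal
  have hbof : ∀ j, ENNReal.ofReal (b j) = min (β j) 1 := fun j =>
    ENNReal.ofReal_toReal (ne_top_of_le_ne_top ENNReal.one_ne_top (min_le_right _ _))
  have hb0 : ∀ j, 0 ≤ b j := fun j => ENNReal.toReal_nonneg
  have hb1 : ∀ j, b j ≤ 1 := fun j => by
    have h := ENNReal.toReal_mono ENNReal.one_ne_top (min_le_right (β j) 1)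
    simpa using h
  have hmaster := master K hKc hK hK0 k e f hee hff hef B' hcover' (fun j => √(b j))
    (fun j => Real.sqrt_nonneg _) (fun j => Real.sqrt_le_one.mpr (hb1 j)) (by
      intro j
      rw [Real.sq_sqrt (hb0 j), hbof j]
      rcases le_total (β j) 1 with h | h
      · rw [min_eq_left h]
        show volume (B' j ∩ frameProj (e j) (f j) '' K)
          ≤ volume (B' j) / volume (frameProj (e j) (f j) '' K)
            * volume (frameProj (e j) (f j) '' K)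
        rw [ENNReal.div_mul_cancel (hD0 j) (hDtop j)]
        exact measure_mono inter_subset_left
      · rw [min_eq_right h, one_mul]
        exact measure_mono inter_subset_right)
  refine ⟨b, hb0, hb1, ?_, ?_⟩
  · have e1 : ∀ j, 3 * b j - 2 * b j * √(b j) = 3 * √(b j) ^ 2 - 2 * √(b j) ^ 3 := by
      intro j
      have h := Real.sq_sqrt (hb0 j)
      calc 3 * b j - 2 * b j * √(b j) = 3 * √(b j) ^ 2 - 2 * √(b j) ^ 2 * √(b j) := by rw [h]
        _ = 3 * √(b j) ^ 2 - 2 * √(b j) ^ 3 := by ring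
    rw [Finset.sum_congr rfl (fun j _ => e1 j)]
    exact hmaster
  · rw [ENNReal.ofReal_sum_of_nonneg (fun j _ => hb0 j)]
    calc ∑ j, ENNReal.ofReal (b j) ≤ ∑ j, β j :=
          Finset.sum_le_sum fun j _ => by rw [hbof j]; exact min_le_left _ _
      _ ≤ ∑ j, ∑ i, (if d i = j then volume (B i) / volume (frameProj (e j) (f j) '' K)
            else 0) := by
          apply Finset.sum_le_sum
          intro j _
          calc β j ≤ (∑ i, volume (if d i = j then B i else ∅))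
                / volume (frameProj (e j) (f j) '' K) := by
                apply ENNReal.div_le_div_right
                exact measure_iUnion_fintype_le _ _
            _ = ∑ i, volume (if d i = j then B i else ∅)
                / volume (frameProj (e j) (f j) '' K) := by
                simp only [div_eq_mul_inv, Finset.sum_mul]
            _ = ∑ i, (if d i = j then volume (B i) / volume (frameProj (e j) (f j) '' K)
                else 0) := by
                apply Finset.sum_congr rfl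
                intro i _
                split_ifs <;> simp
      _ = ∑ i, ∑ j, (if d i = j then volume (B i) / volume (frameProj (e j) (f j) '' K)
            else 0) := Finset.sum_comm
      _ = ∑ i, volume (B i) / volume (frameProj (e (d i)) (f (d i)) '' K) := by
          apply Finset.sum_congr rfl
          intro i _
          rw [Finset.sum_ite_eq]
          simp

/-- tangent-line estimate for the concentration function -/
theorem tangent_sum (k : ℕ) (b : Fin k → ℝ) (hb0 : ∀ j, 0 ≤ b j)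
    (hmaster : 1 ≤ ∑ j, (3 * b j - 2 * b j * √(b j))) (x : ℝ) (hx0 : 0 ≤ x) :
    1 ≤ k * (3 * x ^ 2 - 2 * x ^ 3) + (3 - 3 * x) * (∑ j, b j - k * x ^ 2) := by
  have hterm : ∀ j, 3 * b j - 2 * b j * √(b j)
      ≤ (3 * x ^ 2 - 2 * x ^ 3) + (3 - 3 * x) * (b j - x ^ 2) := by
    intro j
    have h := Real.sq_sqrt (hb0 j)
    have hs := Real.sqrt_nonneg (b j)
    have key : 0 ≤ (√(b j) - x) ^ 2 * (2 * √(b j) + x) := by positivity
    have e1 : (3 * x ^ 2 - 2 * x ^ 3) + (3 - 3 * x) * (√(b j) ^ 2 - x ^ 2)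
        - (3 * √(b j) ^ 2 - 2 * √(b j) ^ 2 * √(b j))
        = (√(b j) - x) ^ 2 * (2 * √(b j) + x) := by ring
    rw [h] at e1
    linarith
  have hsum := Finset.sum_le_sum (fun j (_ : j ∈ Finset.univ) => hterm j)
  have e2 : ∑ j : Fin k, ((3 * x ^ 2 - 2 * x ^ 3) + (3 - 3 * x) * (b j - x ^ 2))
      = k * (3 * x ^ 2 - 2 * x ^ 3) + (3 - 3 * x) * (∑ j, b j - k * x ^ 2) := by
    have e3 : ∑ j : Fin k, (b j - x ^ 2) = ∑ j, b j - k * x ^ 2 := by
      rw [Finset.sum_sub_distrib]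
      simp
    rw [Finset.sum_add_distrib, ← Finset.mul_sum, e3]
    simp
    ring
  rw [e2] at hsum
  linarith

theorem bound_half (k : ℕ) (hk : k ≤ 2) (b : Fin k → ℝ) (hb0 : ∀ j, 0 ≤ b j)
    (hmaster : 1 ≤ ∑ j, (3 * b j - 2 * b j * √(b j))) : 1 / 2 ≤ ∑ j, b j := by
  have h := tangent_sum k b hb0 hmaster (1 / 2) (by norm_num)
  have hk' : (k : ℝ) ≤ 2 := by exact_mod_cast hk
  nlinarith

theorem bound_general (k : ℕ) (b : Fin k → ℝ) (hb0 : ∀ j, 0 ≤ b j)
    (hmaster : 1 ≤ ∑ j, (3 * b j - 2 * b j * √(b j))) :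
    1 / 3 + 2 / (9 * √(3 * (k : ℝ))) ≤ ∑ j, b j := by
  rcases Nat.eq_zero_or_pos k with hk | hk
  · subst hk
    simp at hmaster
    linarith
  have hk1 : (1 : ℝ) ≤ k := by exact_mod_cast hk
  set w := √(3 * (k : ℝ)) with hw
  have hw2 : w ^ 2 = 3 * k := Real.sq_sqrt (by positivity)
  have hwpos : 0 < w := Real.sqrt_pos.mpr (by positivity)
  have hw1 : 1 < w := by nlinarith
  have h := tangent_sum k b hb0 hmaster (1 / w) (by positivity)
  have hx : 0 < 1 / w := by positivity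
  have hx1 : 1 / w < 1 := by rw [div_lt_one hwpos]; exact hw1
  have hkx : (k : ℝ) * (1 / w) ^ 2 = 1 / 3 := by
    rw [one_div, inv_pow, hw2]
    field_simp
  have hkx3 : (k : ℝ) * (1 / w) ^ 3 = 1 / 3 * (1 / w) := by
    calc (k : ℝ) * (1 / w) ^ 3 = ((k : ℝ) * (1 / w) ^ 2) * (1 / w) := by ring
      _ = 1 / 3 * (1 / w) := by rw [hkx]
  have h' : 1 ≤ (1 - 2 / 3 * (1 / w)) + (3 - 3 * (1 / w)) * (∑ j, b j - 1 / 3) := by
    have e : (k : ℝ) * (3 * (1 / w) ^ 2 - 2 * (1 / w) ^ 3)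
        = 1 - 2 / 3 * (1 / w) := by
      calc (k : ℝ) * (3 * (1 / w) ^ 2 - 2 * (1 / w) ^ 3)
          = 3 * ((k : ℝ) * (1 / w) ^ 2) - 2 * ((k : ℝ) * (1 / w) ^ 3) := by ring
        _ = 1 - 2 / 3 * (1 / w) := by rw [hkx, hkx3]; ring
    rw [e, hkx] at h
    exact h
  have e3 : 2 / (9 * w) = 2 / 9 * (1 / w) := by field_simp
  rw [e3]
  set y := 1 / w with hy
  by_contra hcon
  have hcon := not_le.mp hcon
  nlinarith

theorem bound_sharp (k : ℕ) (b : Fin k → ℝ) (hb0 : ∀ j, 0 ≤ b j)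
    (hmaster : 1 ≤ ∑ j, (3 * b j - 2 * b j * √(b j))) (x : ℝ) (hx0 : 0 ≤ x) (hx1 : x < 1)
    (hk : k * (3 * x ^ 2 - 2 * x ^ 3) ≤ 1) : k * x ^ 2 ≤ ∑ j, b j := by
  have h := tangent_sum k b hb0 hmaster x hx0
  by_contra hcon
  have hcon := not_le.mp hcon
  nlinarith

end Vale.Agent.Lib.P243.H19
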